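import Mathlib

/-! Planarity through rotation systems (combinatorial embeddings) and 3-connectivity. -/

namespace Vale.Agent.P039

variable {α : Type*}

/-- Reversal of darts (oriented edges), as a permutation. -/
def dartRev (G : SimpleGraph α) : Equiv.Perm G.Dart :=
  Function.Involutive.toPerm SimpleGraph.Dart.symm SimpleGraph.Dart.symm_involutive

/-- A rotation system: a cyclic order of the darts leaving each vertex. -/
def IsRotation (G : SimpleGraph α) (σ : Equiv.Perm G.Dart) : Prop :=
  (∀ d, (σ d).fst = d.fst) ∧ ∀ d d' : G.Dart, d.fst = d'.fst → σ.SameCycle d d'

/-- The number of faces of the embedding given by a rotation system: the number of orbits of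
the face-tracing permutation, which reverses a dart and then rotates it. -/
noncomputable def numFaces (G : SimpleGraph α) (σ : Equiv.Perm G.Dart) : ℕ :=
  Nat.card (Quotient (Equiv.Perm.SameCycle.setoid (σ * dartRev G)))

/-- Planarity of a finite connected graph with an edge: some rotation system has genus zero,
that is, vertices - edges + faces = 2. -/
def IsPlanarConn (G : SimpleGraph α) : Prop :=
  ∃ σ : Equiv.Perm G.Dart, IsRotation G σ ∧
    Nat.card α + numFaces G σ = Nat.card G.edgeSet + 2

/-- At least four vertices, and deleting at most two vertices leaves a connected graph. -/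
def ThreeConnected (G : SimpleGraph α) : Prop :=
  4 ≤ Nat.card α ∧ ∀ S : Finset α, S.card ≤ 2 → (G.induce {x | x ∉ S}).Connected

end Vale.Agent.P039
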