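import Vale.Agent.P039.Tree

/-! Existence of two disjoint face assignments when there is no separating cut of type (3,0). -/

namespace Vale.Agent.P039

open Finset

/-- The shift attached to a sign. -/
def sh (b : Bool) : ZMod 3 := if b then 1 else 2

namespace Tri

variable {W B V : Type*} (T : Tri W B V)

/-- A three-edge cut all of whose inner ends are white. -/
structure Cut (p : W → Prop) (q : B → Prop) (wi : ZMod 3 → W) : Prop where
  down : ∀ w i, q (T.n i w) → p w
  out : ∀ w i, (p w ∧ ¬ q (T.n i w)) ↔ w = wi i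

/-- No such cut separates a black vertex from `w0`. -/
def NoCut (w0 : W) : Prop :=
  ∀ p q wi, T.Cut p q wi → ¬ p w0 → ∀ b, ¬ q b

/-- A choice of distinct faces, none at `w0`, one at each other white vertex. -/
structure Valid (w0 : W) (μ : {w // w ≠ w0} → ZMod 3) : Prop where
  inj : Function.Injective (fun w : {w // w ≠ w0} => T.vw w (μ w))
  nr : ∀ (w : {w // w ≠ w0}) j, T.vw w (μ w) ≠ T.vw w0 j

variable [Fintype W] [Fintype B]

open Classical in
theorem cut_balance (K : W ⊕ B → Prop) (i : ZMod 3) :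
    (∑ w, if K (Sum.inl w) then 1 else 0) +
      (∑ w, if K (T.eb (w, i)) ∧ ¬ K (T.ea (w, i)) then 1 else 0) =
    (∑ b, if K (Sum.inr b) then 1 else 0) +
      (∑ w, if K (T.ea (w, i)) ∧ ¬ K (T.eb (w, i)) then (1 : ℕ) else 0) := by
  rw [← Equiv.sum_comp (T.n i) (fun b => if K (Sum.inr b) then 1 else 0),
    ← Finset.sum_add_distrib, ← Finset.sum_add_distrib]
  refine Finset.sum_congr rfl fun w _ => ?_
  simp only [ea, eb]
  by_cases h1 : K (Sum.inl w) <;> by_cases h2 : K (Sum.inr (T.n i w)) <;> simp [h1, h2]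

omit [Fintype B] in
open Classical in
theorem cut_three (K : W ⊕ B → Prop) (x y : W ⊕ B) (hx : K x) (hy : ¬ K y) :
    3 ≤ (∑ e, if K (T.ea e) ∧ ¬ K (T.eb e) then 1 else 0) +
      (∑ e, if K (T.eb e) ∧ ¬ K (T.ea e) then (1 : ℕ) else 0) := by
  by_contra hlt
  have hw : Nonempty W := by
    cases x with
    | inl w => exact ⟨w⟩
    | inr b => exact ⟨(T.n 0).symm b⟩
  obtain ⟨w0⟩ := hw
  let C : Finset (W × ZMod 3) := univ.filter (fun e => ¬ (K (T.ea e) ↔ K (T.eb e)))
  have hC : C.card ≤ 2 := by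
    have : C.card = (∑ e, if K (T.ea e) ∧ ¬ K (T.eb e) then 1 else 0) +
      (∑ e, if K (T.eb e) ∧ ¬ K (T.ea e) then (1 : ℕ) else 0) := by
      rw [card_filter, ← Finset.sum_add_distrib]
      refine Finset.sum_congr rfl fun e _ => ?_
      by_cases h1 : K (T.ea e) <;> by_cases h2 : K (T.eb e) <;> simp [h1, h2]
    omega
  have hcov : ∃ e1 e2, ∀ e ∈ C, e = e1 ∨ e = e2 := by
    rcases Nat.lt_or_ge C.card 2 with h | h
    · have : Nonempty (W × ZMod 3) := ⟨(w0, 0)⟩
      obtain ⟨a, ha⟩ := (Finset.card_le_one_iff_subset_singleton (s := C)).mp (by omega)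
      exact ⟨a, a, fun e he => Or.inl (mem_singleton.mp (ha he))⟩
    · obtain ⟨a, b, -, hab⟩ := Finset.card_eq_two.mp (le_antisymm hC h)
      exact ⟨a, b, fun e he => by simpa [hab] using he⟩
  obtain ⟨e1, e2, h⟩ := hcov
  rcases T.conn3 (fun w => K (Sum.inl w)) (fun b => K (Sum.inr b)) e1 e2
    (fun w i hw => h (w, i) (by
      simp only [C, mem_filter, mem_univ, true_and]; exact hw)) with h1 | h1
  · apply hy
    cases y with
    | inl w => exact h1.1 w
    | inr b => exact h1.2 b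
  · cases x with
    | inl w => exact h1.1 w hx
    | inr b => exact h1.2 b hx

open Classical in
theorem cut_six (w0 : W) (hN : T.NoCut w0) (K : W ⊕ B → Prop) (h0 : ¬ K (Sum.inl w0))
    (b : B) (hb : K (Sum.inr b)) :
    6 ≤ (∑ e, if K (T.ea e) ∧ ¬ K (T.eb e) then 1 else 0) +
      2 * (∑ e, if K (T.eb e) ∧ ¬ K (T.ea e) then (1 : ℕ) else 0) := by
  have h3 := T.cut_three K _ _ hb h0
  have hs : ∀ φ : W × ZMod 3 → ℕ, ∑ e, φ e =
      ∑ w, φ (w, 0) + ∑ w, φ (w, 0 + 1) + ∑ w, φ (w, 0 + 2) := by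
    intro φ
    rw [Fintype.sum_prod_type_right, z3_sum _ 0]
  have b0 := T.cut_balance K 0
  have b1 := T.cut_balance K (0 + 1)
  have b2 := T.cut_balance K (0 + 2)
  by_contra hlt
  rw [hs, hs] at h3 hlt
  have hβ : ∀ i, (∑ w, if K (T.eb (w, i)) ∧ ¬ K (T.ea (w, i)) then (1 : ℕ) else 0) = 0 := by
    intro i
    rcases z3_cases i 0 with rfl | rfl | rfl <;> omega
  have hα : ∀ i, (∑ w, if K (T.ea (w, i)) ∧ ¬ K (T.eb (w, i)) then (1 : ℕ) else 0) = 1 := by
    intro i
    rcases z3_cases i 0 with rfl | rfl | rfl <;> omega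
  have hwi : ∀ i, ∃ u, ∀ w, (K (Sum.inl w) ∧ ¬ K (Sum.inr (T.n i w))) ↔ w = u := by
    intro i
    have := hα i
    rw [← card_filter] at this
    obtain ⟨u, hu⟩ := card_eq_one.mp this
    refine ⟨u, fun w => ?_⟩
    rw [← mem_singleton, ← hu, mem_filter]
    simp only [mem_univ, true_and, ea, eb]
  choose wi hwi using hwi
  refine hN (fun w => K (Sum.inl w)) (fun b => K (Sum.inr b)) wi ⟨fun w i hq => ?_,
    fun w i => hwi i w⟩ h0 b hb
  by_contra hp
  have := (Finset.sum_eq_zero_iff.mp (hβ i)) w (mem_univ _)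
  rw [if_pos ⟨hq, hp⟩] at this
  exact one_ne_zero this

variable [Fintype V] {T}

open Classical in
theorem Good.card_nonroot (hT : T.Good) (w0 : W) :
    Fintype.card {v // ∀ j, v ≠ T.vw w0 j} = Fintype.card {w // w ≠ w0} := by
  have h1 : Fintype.card {v // ¬ ∀ j, v ≠ T.vw w0 j} = 3 := by
    have : Function.Bijective (fun j : ZMod 3 =>
        (⟨T.vw w0 j, fun h => h j rfl⟩ : {v // ¬ ∀ j, v ≠ T.vw w0 j})) := by
      refine ⟨fun j k h => T.vw_inj (congrArg Subtype.val h), fun v => ?_⟩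
      have := v.2
      push Not at this
      obtain ⟨j, hj⟩ := this
      exact ⟨j, Subtype.ext hj.symm⟩
    rw [← Fintype.card_of_bijective this, ZMod.card]
  rw [Fintype.card_subtype_compl] at h1
  have h2 : Fintype.card {w // w ≠ w0} = Fintype.card W - 1 := by
    rw [← Fintype.card_subtype_eq w0, ← Fintype.card_subtype_compl]
  have h3 := hT.card_V
  have h4 : 0 < Fintype.card W := Fintype.card_pos_iff.mpr hT.ne
  have h5 := Fintype.card_subtype_le (fun v => ∀ j, v ≠ T.vw w0 j)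
  omega

open Classical in
theorem Good.hall_ineq (hT : T.Good) (w0 : W) (hN : T.NoCut w0) (S : Finset V)
    (hS : ∀ j, T.vw w0 j ∉ S) (A : W → Prop) :
    2 * S.card ≤ ∑ w, if A w then 2 else ∑ j, if T.vw w j ∈ S then 1 else 0 := by
  have := hT.ne
  let F : Finset (W × ZMod 3) := univ.filter (fun e => T.el e ∈ S ∨ T.er e ∈ S)
  let Y : Finset (W ⊕ B) := univ.filter (fun x => ∃ j, T.vx x j ∈ S)
  have hF : ∀ e, e ∈ F ↔ (T.el e ∈ S ∨ T.er e ∈ S) := fun e => by
    simp only [F, mem_filter, mem_univ, true_and]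
  have hY : ∀ x, x ∈ Y ↔ ∃ j, T.vx x j ∈ S := fun x => by
    simp only [Y, mem_filter, mem_univ, true_and]
  have hel : ∀ e, T.vx (T.eb e) (e.2 + 1) = T.el e := fun e => T.compat _ _ _ (z3_ne1 _)
  have her : ∀ e, T.vx (T.eb e) (e.2 + 2) = T.er e := fun e => T.compat _ _ _ (z3_ne2 _)
  have hFa : ∀ e ∈ F, T.ea e ∈ Y := fun e he => by
    rw [hY]
    rcases (hF e).mp he with h | h
    · exact ⟨_, h⟩
    · exact ⟨_, h⟩
  have hFb : ∀ e ∈ F, T.eb e ∈ Y := fun e he => by
    rw [hY]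
    rcases (hF e).mp he with h | h
    · exact ⟨_, (hel e).symm ▸ h⟩
    · exact ⟨_, (her e).symm ▸ h⟩
  let rel : W ⊕ B → W ⊕ B → Prop := fun x y => ∃ e ∈ F, x = T.ea e ∧ y = T.eb e
  let c : W ⊕ B → Quot rel := Quot.mk rel
  have hcF : ∀ e ∈ F, c (T.ea e) = c (T.eb e) := fun e he => Quot.sound ⟨e, he, rfl, rfl⟩
  have hcY : ∀ x y, c x = c y → (x ∈ Y ↔ y ∈ Y) := fun x y h =>
    Iff.of_eq (eqvGen_const (fun x => x ∈ Y) (fun x y hxy => by
      obtain ⟨e, he, rfl, rfl⟩ := hxy
      exact propext (iff_of_true (hFa e he) (hFb e he))) (Quot.eqvGen_exact h))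
  let Q : Finset (Quot rel) := Y.image c
  have main := T.lemR_face hT.surj S F Y (Q.image Quot.out) _ (hS 0)
    (fun e he => by rw [hF] at he; push Not at he; exact he) (fun f h1 h2 h3 x => by
      by_cases hx : x ∈ Y
      · have h4 : c x = c (Quot.out (c x)) := (Quot.out_eq _).symm
        rw [eqvGen_const f (fun x y hxy => by
          obtain ⟨e, he, rfl, rfl⟩ := hxy
          exact (h3 e he).symm) (Quot.eqvGen_exact h4)]
        exact h2 _ (mem_image_of_mem _ (mem_image_of_mem _ hx))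
      · exact h1 x hx)
  have hP : (Q.image Quot.out).card ≤ Q.card := card_image_le
  have h6 : ∀ q ∈ Q, 6 ≤ (∑ e, if c (T.ea e) = q ∧ ¬ c (T.eb e) = q then 1 else 0) +
      2 * (∑ e, if c (T.eb e) = q ∧ ¬ c (T.ea e) = q then (1 : ℕ) else 0) := by
    intro q hq
    obtain ⟨y, hy, rfl⟩ := mem_image.mp hq
    have hb : ∃ b, c (Sum.inr b) = c y := by
      cases y with
      | inr b => exact ⟨b, rfl⟩
      | inl w =>
        obtain ⟨j, hj⟩ := (hY _).mp hy
        refine ⟨_, (hcF (w, j + 2) ((hF _).mpr (Or.inl ?_))).symm⟩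
        simp only [el, z3_21]
        exact hj
    obtain ⟨b, hb⟩ := hb
    have := T.cut_six w0 hN (fun x => c x = c y) (fun h => by
      obtain ⟨j, hj⟩ := (hY _).mp ((hcY _ _ h).mpr hy)
      exact hS j hj) b hb
    exact this
  have hsum := Finset.sum_le_sum h6
  rw [Finset.sum_add_distrib, ← Finset.mul_sum, Finset.sum_const, smul_eq_mul,
    Finset.sum_comm, Finset.sum_comm (s := Q)] at hsum
  have ha : (∑ e, ∑ q ∈ Q, if c (T.ea e) = q ∧ ¬ c (T.eb e) = q then 1 else 0) ≤
      ∑ e, if e ∉ F ∧ T.ea e ∈ Y then 1 else 0 := by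
    refine Finset.sum_le_sum fun e _ => ?_
    by_cases he : e ∉ F ∧ T.ea e ∈ Y
    · rw [if_pos he, ← card_filter]
      exact card_le_one.mpr fun a ha b hb =>
        (mem_filter.mp ha).2.1.symm.trans (mem_filter.mp hb).2.1
    · refine le_of_eq_of_le (Finset.sum_eq_zero fun q hq => if_neg fun h => he ⟨fun h1 => ?_, ?_⟩)
        (Nat.zero_le _)
      · exact h.2 ((hcF e h1).symm.trans h.1)
      · obtain ⟨y, hy, rfl⟩ := mem_image.mp hq
        exact (hcY _ _ h.1).mpr hy
  have hb : (∑ e, ∑ q ∈ Q, if c (T.eb e) = q ∧ ¬ c (T.ea e) = q then 1 else 0) ≤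
      ∑ e, if e ∉ F ∧ T.eb e ∈ Y then 1 else 0 := by
    refine Finset.sum_le_sum fun e _ => ?_
    by_cases he : e ∉ F ∧ T.eb e ∈ Y
    · rw [if_pos he, ← card_filter]
      exact card_le_one.mpr fun a ha b hb =>
        (mem_filter.mp ha).2.1.symm.trans (mem_filter.mp hb).2.1
    · refine le_of_eq_of_le (Finset.sum_eq_zero fun q hq => if_neg fun h => he ⟨fun h1 => ?_, ?_⟩)
        (Nat.zero_le _)
      · exact h.2 ((hcF e h1).trans h.1)
      · obtain ⟨y, hy, rfl⟩ := mem_image.mp hq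
        exact (hcY _ _ h.1).mpr hy
  have hFc : F.card = ∑ e, if e ∈ F then 1 else 0 := by simp
  have ca : F.card + (∑ e, if e ∉ F ∧ T.ea e ∈ Y then 1 else 0) =
      3 * ∑ w, (if Sum.inl w ∈ Y then 1 else 0) := by
    rw [hFc, ← Finset.sum_add_distrib, Finset.mul_sum, sum_edge]
    refine Finset.sum_congr rfl fun w _ => ?_
    have : ∀ i, ((if (w, i) ∈ F then 1 else 0) + if (w, i) ∉ F ∧ T.ea (w, i) ∈ Y then 1 else 0) =
        if Sum.inl w ∈ Y then 1 else 0 := by
      intro i
      by_cases h : (w, i) ∈ F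
      · have : Sum.inl w ∈ Y := hFa _ h
        simp [h, this]
      · simp [h, ea]
    simp only [this]
    simp
  have cb : F.card + (∑ e, if e ∉ F ∧ T.eb e ∈ Y then 1 else 0) =
      3 * ∑ b, (if Sum.inr b ∈ Y then 1 else 0) := by
    rw [hFc, ← Finset.sum_add_distrib, Finset.mul_sum, T.sum_edgeB]
    refine Finset.sum_congr rfl fun b _ => ?_
    have : ∀ i, ((if ((T.n i).symm b, i) ∈ F then 1 else 0) +
        if ((T.n i).symm b, i) ∉ F ∧ T.eb ((T.n i).symm b, i) ∈ Y then 1 else 0) =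
        if Sum.inr b ∈ Y then 1 else 0 := by
      intro i
      by_cases h : ((T.n i).symm b, i) ∈ F
      · have : Sum.inr b ∈ Y := by simpa only [eb, Equiv.apply_symm_apply] using hFb _ h
        simp [h, this]
      · simp [h, eb]
    simp only [this]
    simp
  have c5 : Y.card = ∑ w, (if Sum.inl w ∈ Y then 1 else 0) +
      ∑ b, (if Sum.inr b ∈ Y then 1 else 0) := by
    rw [← Fintype.sum_sum_type (f := fun x => if x ∈ Y then 1 else 0)]
    simp
  have fin : 2 * ∑ w, (if Sum.inl w ∈ Y then 1 else 0) ≤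
      (∑ e, if e ∉ F ∧ T.ea e ∈ Y then 1 else 0) +
        ∑ w, if A w then 2 else ∑ j, if T.vw w j ∈ S then 1 else 0 := by
    rw [Finset.mul_sum, sum_edge, ← Finset.sum_add_distrib]
    refine Finset.sum_le_sum fun w _ => ?_
    by_cases hw : Sum.inl w ∈ Y
    · obtain ⟨j, hj⟩ := (hY _).mp hw
      have hj' : T.vw w j ∈ S := hj
      rw [z3_sum _ j, z3_sum _ j]
      simp only [hF, el, er, ea, hw, hj', z3_11, z3_12, z3_21, z3_22]
      by_cases h1 : T.vw w (j + 1) ∈ S <;> by_cases h2 : T.vw w (j + 2) ∈ S <;>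
        by_cases h3 : A w <;> simp [h1, h2, h3]
    · simp [hw]
  omega

open Classical in
theorem Good.exists_pair (hT : T.Good) (w0 : W) (hN : T.NoCut w0) :
    ∃ (h : {w // w ≠ w0} → ZMod 3) (η : {w // w ≠ w0} → Bool),
      T.Valid w0 (fun w => h w + sh (η w)) ∧ T.Valid w0 (fun w => h w - sh (η w)) := by
  have hcard : Fintype.card {v // ∀ j, v ≠ T.vw w0 j} = Fintype.card {w // w ≠ w0} :=
    hT.card_nonroot w0
  let t : {w // w ≠ w0} ⊕ ({v // ∀ j, v ≠ T.vw w0 j} × Bool) → Finset ({w // w ≠ w0} × ZMod 3) :=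
    Sum.elim (fun w => univ.filter (fun c => c.1 = w))
      (fun p => univ.filter (fun c => T.vw c.1 c.2 = p.1))
  obtain ⟨f, hf, hft⟩ := (Finset.all_card_le_biUnion_card_iff_exists_injective t).mp (fun s => by
    let S : Finset V := s.toRight.image (fun p => (p.1 : V))
    have hS : ∀ j, T.vw w0 j ∉ S := by
      intro j hj
      obtain ⟨p, -, hp⟩ := mem_image.mp hj
      exact p.1.2 j hp
    have h1 : s.toRight.card ≤ 2 * S.card := by
      refine card_le_mul_card_image _ 2 (fun v _ => ?_)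
      refine le_trans (card_le_card_of_injOn (t := univ) (fun p => p.2)
        (fun _ _ => mem_coe.mpr (mem_univ _)) ?_) (by simp)
      intro p hp p' hp' h
      simp only [coe_filter, Set.mem_ofPred_eq] at hp hp'
      exact Prod.ext (Subtype.ext (hp.2.trans hp'.2.symm)) h
    obtain ⟨A, hA⟩ : ∃ A : W → Prop, ∀ w, A w ↔ ∃ h : w ≠ w0, Sum.inl ⟨w, h⟩ ∈ s :=
      ⟨_, fun _ => Iff.rfl⟩
    have h2 := hT.hall_ineq w0 hN S hS A
    rw [Fintype.sum_eq_add_sum_subtype_ne _ w0, if_neg (fun h => ((hA _).mp h).1 rfl),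
      Finset.sum_eq_zero (fun j _ => if_neg (hS j)), zero_add] at h2
    have h4 : s.toLeft.card = ∑ w, if Sum.inl w ∈ s then 1 else 0 := by
      rw [← card_filter]
      congr 1
      ext w
      simp
    have h5 : (s.biUnion t).card = ∑ w, ∑ j, if (w, j) ∈ s.biUnion t then 1 else 0 := by
      rw [← Fintype.sum_prod_type (f := fun c => if c ∈ s.biUnion t then 1 else 0)]
      simp only [sum_boole, Nat.cast_id, filter_mem_eq_inter, univ_inter]
    have h6 : (∑ w, if Sum.inl w ∈ s then 1 else 0) + (∑ w : {w // w ≠ w0},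
        if A w then 2 else
        ∑ j, if T.vw w j ∈ S then 1 else 0) ≤
        ∑ w, ∑ j, if (w, j) ∈ s.biUnion t then 1 else 0 := by
      rw [← Finset.sum_add_distrib]
      refine Finset.sum_le_sum fun w _ => ?_
      by_cases hw : Sum.inl w ∈ s
      · have : ∀ j, (w, j) ∈ s.biUnion t := fun j =>
          mem_biUnion.mpr ⟨_, hw, by simp [t]⟩
        rw [if_pos hw, if_pos ((hA _).mpr ⟨w.2, hw⟩)]
        simp [this]
      · rw [if_neg hw, if_neg (fun h => hw ((hA _).mp h).2), zero_add]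
        refine Finset.sum_le_sum fun j _ => ?_
        by_cases hj : T.vw w j ∈ S
        · obtain ⟨p, hp, hp'⟩ := mem_image.mp hj
          have : (w, j) ∈ s.biUnion t := mem_biUnion.mpr ⟨Sum.inr p, mem_toRight.mp hp, by
            simp only [t, Sum.elim_inr, mem_filter, mem_univ, true_and]; exact hp'.symm⟩
          rw [if_pos this, if_pos hj]
        · rw [if_neg hj]; exact Nat.zero_le _
    have h7 := card_toLeft_add_card_toRight (u := s)
    omega)
  have hfb : Function.Bijective f := (Fintype.bijective_iff_injective_and_card _).mpr ⟨hf, by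
    simp only [Fintype.card_sum, Fintype.card_prod, ZMod.card, Fintype.card_bool, hcard]
    omega⟩
  let h : {w // w ≠ w0} → ZMod 3 := fun w => (f (Sum.inl w)).2
  have hfl : ∀ w, f (Sum.inl w) = (w, h w) := fun w => by
    have := hft (Sum.inl w)
    simp only [t, Sum.elim_inl, mem_filter, mem_univ, true_and] at this
    exact Prod.ext this rfl
  have hfr : ∀ p, T.vw (f (Sum.inr p)).1 (f (Sum.inr p)).2 = p.1 := fun p => by
    have := hft (Sum.inr p)
    simpa only [t, Sum.elim_inr, mem_filter, mem_univ, true_and] using this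
  have hfr' : ∀ p, (f (Sum.inr p)).2 ≠ h (f (Sum.inr p)).1 := fun p hp => by
    have : f (Sum.inr p) = f (Sum.inl (f (Sum.inr p)).1) := by rw [hfl, ← hp]
    exact Sum.inr_ne_inl (hf this)
  have hnon : ∀ w j, j ≠ h w → ∃ p, f (Sum.inr p) = (w, j) := by
    intro w j hj
    obtain ⟨x, hx⟩ := hfb.2 (w, j)
    cases x with
    | inl u =>
      rw [hfl] at hx
      obtain ⟨h1, h2⟩ := Prod.mk.inj hx
      exact absurd (by rw [← h1, h2]) hj
    | inr p => exact ⟨p, hx⟩
  let t2 : {v // ∀ j, v ≠ T.vw w0 j} → Finset {w // w ≠ w0} :=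
    fun v => univ.filter (fun w => ∃ j, j ≠ h w ∧ T.vw w j = v)
  obtain ⟨g, hg, hgt⟩ := (Finset.all_card_le_biUnion_card_iff_exists_injective t2).mp (fun s => by
    have h1 : (s ×ˢ (univ : Finset Bool)).card ≤
        (univ.filter (fun c : {w // w ≠ w0} × ZMod 3 => c.2 ≠ h c.1 ∧ c.1 ∈ s.biUnion t2)).card := by
      refine card_le_card_of_injOn (fun p => f (Sum.inr p)) (fun p hp => ?_)
        (fun p _ p' _ hh => Sum.inr_injective (hf hh))
      simp only [coe_filter, Set.mem_ofPred_eq, mem_univ, true_and]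
      refine ⟨hfr' p, mem_biUnion.mpr ⟨p.1, (mem_product.mp hp).1, ?_⟩⟩
      simp only [t2, mem_filter, mem_univ, true_and]
      exact ⟨_, hfr' p, hfr p⟩
    have h2 := sum_nonM_W h (fun w => if w ∈ s.biUnion t2 then 1 else 0)
    have h3 : (univ.filter (fun c : {w // w ≠ w0} × ZMod 3 =>
        c.2 ≠ h c.1 ∧ c.1 ∈ s.biUnion t2)).card = 2 * (s.biUnion t2).card := by
      rw [card_filter]
      simp only [sum_boole, Nat.cast_id, filter_mem_eq_inter, univ_inter] at h2
      rw [← h2]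
      exact Finset.sum_congr rfl fun c _ => by rw [ite_and]
    rw [card_product, card_univ, Fintype.card_bool] at h1
    omega)
  have hgb : Function.Bijective g := (Fintype.bijective_iff_injective_and_card _).mpr ⟨hg, hcard⟩
  let G := Equiv.ofBijective g hgb
  have hμ : ∀ w, ∃ j, j ≠ h w ∧ T.vw w j = G.symm w := fun w => by
    have := hgt (G.symm w)
    have h1 : g (G.symm w) = w := G.apply_symm_apply w
    rw [h1] at this
    simpa only [t2, mem_filter, mem_univ, true_and] using this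
  have hη : ∀ w : {w // w ≠ w0}, ∃ b, T.vw w (h w + sh b) = G.symm w := fun w => by
    obtain ⟨j, hj, hj'⟩ := hμ w
    rcases z3_cases j (h w) with h1 | h1 | h1
    · exact absurd h1 hj
    · exact ⟨true, by rw [← hj', h1]; rfl⟩
    · exact ⟨false, by rw [← hj', h1]; rfl⟩
  choose η hη using hη
  have z1 : ∀ (a : ZMod 3) b, a + sh b ≠ a := by decide
  have z2 : ∀ (a : ZMod 3) b, a - sh b ≠ a := by decide
  have z3 : ∀ (a : ZMod 3) b, a - sh b ≠ a + sh b := by decide
  refine ⟨h, η, ⟨fun w w' hw => ?_, fun w j => ?_⟩, ⟨fun w w' hw => ?_, fun w j => ?_⟩⟩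
  · simp only [hη] at hw
    exact G.symm.injective (Subtype.ext hw)
  · rw [hη]; exact (G.symm w).2 j
  · obtain ⟨p, hp⟩ := hnon w _ (z2 (h w) (η w))
    obtain ⟨p', hp'⟩ := hnon w' _ (z2 (h w') (η w'))
    obtain ⟨p'', hp''⟩ := hnon (G p.1) _ (z1 (h (G p.1)) (η (G p.1)))
    have e1 := hfr p
    have e2 := hfr p'
    have e3 := hfr p''
    rw [hp] at e1
    rw [hp'] at e2
    rw [hp''] at e3
    simp only at e1 e2 e3 hw
    rw [hη, G.symm_apply_apply] at e3
    have e4 : p.1 = p'.1 := Subtype.ext (by rw [← e1, ← e2, hw])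
    have e5 : p.1 = p''.1 := Subtype.ext e3
    have n1 : p.2 ≠ p''.2 := fun hh => by
      have : p = p'' := Prod.ext e5 hh
      rw [← this, hp] at hp''
      obtain ⟨a1, a2⟩ := Prod.mk.inj hp''
      rw [← a1] at a2
      exact z3 _ _ a2
    have n2 : p'.2 ≠ p''.2 := fun hh => by
      have : p' = p'' := Prod.ext (e4.symm.trans e5) hh
      rw [← this, hp'] at hp''
      obtain ⟨a1, a2⟩ := Prod.mk.inj hp''
      rw [← a1] at a2
      exact z3 _ _ a2
    have e6 : p = p' := Prod.ext e4 (by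
      revert n1 n2
      cases p.2 <;> cases p'.2 <;> cases p''.2 <;> simp)
    rw [← e6, hp] at hp'
    exact (Prod.mk.inj hp').1
  · obtain ⟨p, hp⟩ := hnon w _ (z2 (h w) (η w))
    have e1 := hfr p
    rw [hp] at e1
    simp only at e1
    rw [e1]
    exact p.1.2 j

end Tri

end Vale.Agent.P039
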