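import Vale.Agent.P039.Sum

/-! Induction over three-edge cuts. -/

namespace Vale.Agent.P039

open Finset

namespace Tri

universe u

variable {W B V : Type*} (T : Tri W B V)

/-- The faces that occur. -/
def faces : Set V := {v | ∃ w j, T.vw w j = v}

theorem vb_mem (b : B) (j : ZMod 3) : T.vb b j ∈ T.faces :=
  ⟨_, j, (T.vb_eq b (j + 1) j (z3_ne1 j).symm).symm⟩

/-- Restriction to the faces that occur. -/
def res : Tri W B T.faces where
  n := T.n
  vw w j := ⟨T.vw w j, w, j, rfl⟩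
  vb b j := ⟨T.vb b j, T.vb_mem b j⟩
  col v := T.col v
  col_vw := T.col_vw
  compat i j w h := Subtype.ext (T.compat i j w h)
  conn3 := T.conn3

theorem res_surj (v : T.faces) : ∃ w j, T.res.vw w j = v := by
  obtain ⟨v, w, j, rfl⟩ := v
  exact ⟨w, j, rfl⟩

/-- Exchange of the two colour classes. -/
def swap : Tri B W V where
  n i := (T.n i).symm
  vw := T.vb
  vb := T.vw
  col := T.col
  col_vw := T.col_vb
  compat i j b h := (T.vb_eq b i j h).symm
  conn3 p q e1 e2 h := by
    rcases T.conn3 q p (T.eqB.symm e1) (T.eqB.symm e2) (fun w i hw => by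
      rcases h (T.n i w) i (by rw [Equiv.symm_apply_apply]; exact fun hh => hw hh.symm) with
        rfl | rfl
      · left; simp [eqB]
      · right; simp [eqB]) with h1 | h1
    · exact Or.inl ⟨h1.2, h1.1⟩
    · exact Or.inr ⟨h1.2, h1.1⟩

variable {T} {p : W → Prop} {q : B → Prop} {wi : ZMod 3 → W}

theorem Cut.swap (hc : T.Cut p q wi) :
    T.swap.Cut (fun b => ¬ q b) (fun w => ¬ p w) (fun i => T.n i (wi i)) := by
  refine ⟨fun b i hp hq => hp (hc.down _ i (by
    change q (T.n i ((T.n i).symm b))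
    rw [Equiv.apply_symm_apply]; exact hq)), fun b i => ?_⟩
  have := hc.out ((T.n i).symm b) i
  rw [Equiv.apply_symm_apply, Equiv.symm_apply_eq] at this
  rw [← this, not_not, and_comm]
  rfl

theorem Cut.p_wi (hc : T.Cut p q wi) (i : ZMod 3) : p (wi i) := ((hc.out _ i).mpr rfl).1

theorem Cut.q_wi (hc : T.Cut p q wi) (i : ZMod 3) : ¬ q (T.n i (wi i)) := ((hc.out _ i).mpr rfl).2

open Classical in
/-- The matchings of the contracted structure. -/
noncomputable def Cut.nIn (hc : T.Cut p q wi) (i : ZMod 3) : {w // p w} ≃ Option {b // q b} where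
  toFun w := if h : q (T.n i w) then some ⟨_, h⟩ else none
  invFun o := o.elim ⟨wi i, hc.p_wi i⟩
    (fun b => ⟨(T.n i).symm b, hc.down _ i (by rw [Equiv.apply_symm_apply]; exact b.2)⟩)
  left_inv w := by
    by_cases h : q (T.n i w)
    · simp [h]
    · simp only [h, dif_neg, not_false_iff, Option.elim]
      exact Subtype.ext ((hc.out _ i).mp ⟨w.2, h⟩).symm
  right_inv o := by
    cases o with
    | none => simp [hc.q_wi i]
    | some b => simp [b.2]

theorem Cut.nIn_some (hc : T.Cut p q wi) (i : ZMod 3) (w : {w // p w}) (h : q (T.n i w)) :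
    hc.nIn i w = some ⟨_, h⟩ := dif_pos h

theorem Cut.nIn_none (hc : T.Cut p q wi) (i : ZMod 3) (w : {w // p w}) (h : ¬ q (T.n i w)) :
    hc.nIn i w = none := dif_neg h

variable [Fintype W] [Fintype B]

theorem Cut.delta (hc : T.Cut p q wi) (i j : ZMod 3) (hij : j ≠ i) :
    T.vw (wi (j + 1)) j = T.vw (wi i) j := by
  classical
  have key : ∀ i, j ≠ i →
      (∑ u, if T.vw u j = T.vw (wi (j + 1)) j then (if p u then 1 else 0) else 0) =
      (∑ b, if T.vb b j = T.vw (wi (j + 1)) j then (if q b then 1 else 0) else 0) +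
      (if T.vw (wi i) j = T.vw (wi (j + 1)) j then 1 else 0) := by
    intro i hi
    have : (if T.vw (wi i) j = T.vw (wi (j + 1)) j then 1 else 0) =
        ∑ u, if u = wi i then (if T.vw u j = T.vw (wi (j + 1)) j then 1 else 0) else 0 := by simp
    rw [this, ← Equiv.sum_comp (T.n i), ← Finset.sum_add_distrib]
    refine Finset.sum_congr rfl fun u _ => ?_
    rw [T.compat i j u hi]
    have h1 := hc.down u i
    have h2 := hc.out u i
    by_cases a1 : T.vw u j = T.vw (wi (j + 1)) j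
    · by_cases a2 : q (T.n i u)
      · have a3 : u ≠ wi i := fun hh => (h2.mpr hh).2 a2
        simp [a1, a2, h1 a2, a3]
      · by_cases a3 : p u
        · have a4 := h2.mp ⟨a3, a2⟩
          rw [if_pos a1, if_pos a1, if_pos a1, if_pos a3, if_neg a2, if_pos a4]
        · have a4 : u ≠ wi i := fun hh => a3 (h2.mpr hh).1
          simp [a2, a3, a4]
    · simp [a1]
  have k1 := key i hij
  have k2 := key (j + 1) (z3_ne1 j).symm
  rw [k1, if_pos rfl] at k2
  by_contra h
  rw [if_neg (fun hh => h hh.symm)] at k2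
  omega

/-- Contraction of the outside of a cut to one black vertex. -/
noncomputable def Cut.inn (hc : T.Cut p q wi) : Tri {w // p w} (Option {b // q b}) V where
  n := hc.nIn
  vw w j := T.vw w j
  vb o j := o.elim (T.vw (wi (j + 1)) j) (fun b => T.vb b j)
  col := T.col
  col_vw w j := T.col_vw w j
  compat i j w h := by
    by_cases hq : q (T.n i w)
    · rw [hc.nIn_some i w hq]
      exact T.compat i j w h
    · rw [hc.nIn_none i w hq, (hc.out _ i).mp ⟨w.2, hq⟩]
      exact hc.delta i j h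
  conn3 p' q' e1 e2 h := by
    rcases T.conn3 (fun w => (∃ hw : p w, p' ⟨w, hw⟩) ∨ (¬ p w ∧ q' none))
      (fun b => (∃ hb : q b, q' (some ⟨b, hb⟩)) ∨ (¬ q b ∧ q' none))
      (e1.1, e1.2) (e2.1, e2.2) (fun w i hw => by
        by_cases hp : p w
        · have := h ⟨w, hp⟩ i (fun hh => hw (by
            by_cases hq : q (T.n i w)
            · rw [hc.nIn_some i ⟨w, hp⟩ hq] at hh
              simpa [hp, hq] using hh
            · rw [hc.nIn_none i ⟨w, hp⟩ hq] at hh
              simpa [hp, hq] using hh))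
          rcases this with rfl | rfl
          · exact Or.inl rfl
          · exact Or.inr rfl
        · have hq : ¬ q (T.n i w) := fun hh => hp (hc.down w i hh)
          exact absurd (by simp [hp, hq]) hw) with h1 | h1
    · left
      refine ⟨fun w => ?_, fun o => ?_⟩
      · simpa [w.2] using h1.1 w
      · cases o with
        | none => simpa [hc.q_wi 0] using h1.2 (T.n 0 (wi 0))
        | some b => simpa [b.2] using h1.2 b
    · right
      refine ⟨fun w => ?_, fun o => ?_⟩
      · simpa [w.2] using h1.1 w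
      · cases o with
        | none => simpa [hc.q_wi 0] using h1.2 (T.n 0 (wi 0))
        | some b => simpa [b.2] using h1.2 b

theorem Ham.path {Mw : W → ZMod 3} {Mb : B → ZMod 3} (hH : T.Ham Mw Mb) (b0 : B)
    (P : W → Prop) (Q : B → Prop)
    (h : ∀ w i, i ≠ Mw w → T.n i w ≠ b0 → (P w ↔ Q (T.n i w))) :
    ∃ r : Prop, (∀ w, P w ↔ r) ∧ ∀ b, b ≠ b0 → (Q b ↔ r) := by
  classical
  have hM : ∀ b i, (i ≠ Mw ((T.n i).symm b)) ↔ i ≠ Mb b := by
    intro b i
    have := hH.compat ((T.n i).symm b) i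
    rw [Equiv.apply_symm_apply] at this
    rw [ne_eq, ne_eq, eq_comm, this, eq_comm]
  have par : P ((T.n (Mb b0 + 1)).symm b0) ↔ P ((T.n (Mb b0 + 2)).symm b0) := by
    have h1 := sum_nonM_W (R := ZMod 2) Mw (fun w => if P w then 1 else 0)
    have h2 := T.sum_nonM_B (R := ZMod 2) Mw Mb hH.compat (fun b => if Q b then 1 else 0)
    have h20 : (2 : ZMod 2) = 0 := rfl
    rw [h20, zero_mul] at h1 h2
    have h3 := congrArg₂ (· - ·) h1 h2
    simp only [sub_zero] at h3
    rw [← Finset.sum_sub_distrib, T.sum_edgeB, Finset.sum_eq_single b0, z3_sum _ (Mb b0)] at h3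
    · simp only [hM, z3_ne1, z3_ne2, ne_eq, not_true, not_false_iff, if_true, if_false,
        Equiv.apply_symm_apply] at h3
      have hz : ∀ a b c : ZMod 2, 0 - 0 + (a - c) + (b - c) = 0 → a = b := by decide
      have := hz _ _ _ h3
      by_cases a1 : P ((T.n (Mb b0 + 1)).symm b0) <;>
        by_cases a2 : P ((T.n (Mb b0 + 2)).symm b0) <;> simp [a1, a2] at this ⊢
    · intro b _ hb
      refine Finset.sum_eq_zero fun i _ => ?_
      by_cases hi : i ≠ Mw ((T.n i).symm b)
      · have := h _ i hi (by rw [Equiv.apply_symm_apply]; exact hb)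
        simp only [this, sub_self]
      · simp only [hi, if_false, sub_self]
    · simp
  rcases hH.conn P (fun b => if b = b0 then P ((T.n (Mb b0 + 1)).symm b0) else Q b)
    (fun w i hi => by
      by_cases hb : T.n i w = b0
      · rw [if_pos hb]
        have hw : w = (T.n i).symm b0 := by rw [← hb, Equiv.symm_apply_apply]
        rw [hw, hM] at hi
        rw [hw]
        rcases z3_cases i (Mb b0) with e | e | e
        · exact absurd e hi
        · rw [e]
        · rw [e, par]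
      · rw [if_neg hb]
        exact h w i hi hb) with h1 | h1
  · exact ⟨True, fun w => iff_true_intro (h1.1 w), fun b hb =>
      iff_true_intro (by simpa [hb] using h1.2 b)⟩
  · exact ⟨False, fun w => iff_false_intro (h1.1 w), fun b hb =>
      iff_false_intro (by simpa [hb] using h1.2 b)⟩

theorem Cut.glue (hc : T.Cut p q wi) {M1 : {w // p w} → ZMod 3} {N1 : Option {b // q b} → ZMod 3}
    {M2 : {b // ¬ q b} → ZMod 3} {N2 : Option {w // ¬ p w} → ZMod 3}
    (h1 : hc.inn.Ham M1 N1) (h2 : hc.swap.inn.Ham M2 N2) (hn : N1 none = N2 none) :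
    ∃ Mw Mb, T.Ham Mw Mb ∧ ∀ b (hb : ¬ q b), Mb b = M2 ⟨b, hb⟩ := by
  classical
  let Mw : W → ZMod 3 := fun w => if h : p w then M1 ⟨w, h⟩ else N2 (some ⟨w, h⟩)
  let Mb : B → ZMod 3 := fun b => if h : q b then N1 (some ⟨b, h⟩) else M2 ⟨b, h⟩
  have a1 : ∀ w (h : p w), Mw w = M1 ⟨w, h⟩ := fun w h => dif_pos h
  have a2 : ∀ w (h : ¬ p w), Mw w = N2 (some ⟨w, h⟩) := fun w h => dif_neg h
  have a3 : ∀ b (h : q b), Mb b = N1 (some ⟨b, h⟩) := fun w h => dif_pos h
  have a4 : ∀ b (h : ¬ q b), Mb b = M2 ⟨b, h⟩ := fun w h => dif_neg h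
  have n2 : ∀ w i (hp : ¬ p w) (hq : ¬ q (T.n i w)),
      hc.swap.inn.n i ⟨T.n i w, hq⟩ = some ⟨w, hp⟩ := by
    intro w i hp hq
    have e : T.swap.n i (T.n i w) = w := (T.n i).symm_apply_apply w
    rw [show hc.swap.inn.n i = hc.swap.nIn i from rfl, hc.swap.nIn_some i _ (by rw [e]; exact hp)]
    simp only [e]
  have n3 : ∀ w i (_ : p w) (hq : ¬ q (T.n i w)), hc.swap.inn.n i ⟨T.n i w, hq⟩ = none := by
    intro w i hp hq
    have e : T.swap.n i (T.n i w) = w := (T.n i).symm_apply_apply w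
    exact hc.swap.nIn_none i _ (by rw [e]; exact not_not.mpr hp)
  have hcomp : ∀ w i, Mw w = i ↔ Mb (T.n i w) = i := by
    intro w i
    by_cases hp : p w
    · by_cases hq : q (T.n i w)
      · rw [a1 w hp, a3 _ hq, h1.compat, show hc.inn.n i = hc.nIn i from rfl, hc.nIn_some i _ hq]
      · rw [a1 w hp, a4 _ hq, h1.compat, show hc.inn.n i = hc.nIn i from rfl, hc.nIn_none i _ hq,
          h2.compat, n3 w i hp hq, hn]
    · have hq : ¬ q (T.n i w) := fun hh => hp (hc.down w i hh)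
      rw [a2 w hp, a4 _ hq, h2.compat, n2 w i hp hq]
  refine ⟨Mw, Mb, ⟨hcomp, fun P Q hPQ => ?_⟩, a4⟩
  obtain ⟨r1, r11, r12⟩ := h1.path none (fun w => P w) (fun o => o.elim True (fun b => Q b))
    (fun w i hi hne => by
      by_cases hq : q (T.n i w)
      · rw [show hc.inn.n i = hc.nIn i from rfl, hc.nIn_some i _ hq]
        exact hPQ w i (by rw [a1 w w.2]; exact hi)
      · exact absurd (hc.nIn_none i _ hq) hne)
  obtain ⟨r2, r21, r22⟩ := h2.path none (fun b => Q b) (fun o => o.elim True (fun w => P w))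
    (fun b i hi hne => by
      obtain ⟨b, hb⟩ := b
      obtain ⟨w, rfl⟩ := (T.n i).surjective b
      by_cases hp : p w
      · exact absurd (n3 w i hp hb) hne
      · rw [n2 w i hp hb]
        refine (hPQ w i (fun hh => hi ?_)).symm
        rw [← a4 _ hb, (hcomp w i).mp hh.symm])
  have hr : r1 ↔ r2 := by
    rw [← r11 ⟨wi (N1 none + 1), hc.p_wi _⟩, ← r21 ⟨_, hc.q_wi (N1 none + 1)⟩]
    refine hPQ _ _ (fun hh => ?_)
    rw [a1 _ (hc.p_wi _), eq_comm, h1.compat, show hc.inn.n _ = hc.nIn _ from rfl,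
      hc.nIn_none _ _ (hc.q_wi _)] at hh
    exact z3_ne1 _ hh.symm
  have b1 : ∀ w, P w ↔ r1 := fun w => by
    by_cases hp : p w
    · exact r11 ⟨w, hp⟩
    · rw [hr]; exact r22 (some ⟨w, hp⟩) (Option.some_ne_none _)
  have b2 : ∀ b, Q b ↔ r1 := fun b => by
    by_cases hq : q b
    · exact r12 (some ⟨b, hq⟩) (Option.some_ne_none _)
    · rw [hr]; exact r21 ⟨b, hq⟩
  by_cases hr1 : r1
  · exact Or.inl ⟨fun w => (b1 w).mpr hr1, fun b => (b2 b).mpr hr1⟩
  · exact Or.inr ⟨fun w hw => hr1 ((b1 w).mp hw), fun b hb => hr1 ((b2 b).mp hb)⟩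

variable [Fintype V]

theorem faces_le [Nonempty W] (T : Tri W B V) : T.faces.ncard ≤ Fintype.card W + 2 := by
  classical
  have := T.res.card_le T.res_surj
  rwa [← Nat.card_eq_fintype_card (α := T.faces), Nat.card_coe_set_eq] at this

theorem Cut.faces_add (hc : T.Cut p q wi) :
    T.faces.ncard + 3 ≤ hc.inn.faces.ncard + hc.swap.inn.faces.ncard := by
  rw [← Set.ncard_union_add_ncard_inter]
  refine add_le_add (Set.ncard_le_ncard ?_) ?_
  · rintro v ⟨w, j, rfl⟩
    by_cases hp : p w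
    · exact Or.inl ⟨⟨w, hp⟩, j, rfl⟩
    · exact Or.inr ⟨⟨T.n (j + 1) w, fun hh => hp (hc.down _ _ hh)⟩, j,
        T.compat _ _ _ (z3_ne1 j).symm⟩
  · have h1 : Set.range (fun j => T.vw (wi (j + 1)) j) ⊆ hc.inn.faces ∩ hc.swap.inn.faces := by
      rintro v ⟨j, rfl⟩
      exact ⟨⟨⟨_, hc.p_wi _⟩, j, rfl⟩, ⟨⟨_, hc.q_wi (j + 1)⟩, j, T.compat _ _ _ (z3_ne1 j).symm⟩⟩
    have h2 := Set.ncard_le_ncard h1
    rwa [Set.ncard_range_of_injective (fun j k hh => T.vw_inj hh), Nat.card_zmod] at h2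

end Tri

universe u

theorem Tri.main {V : Type*} [Fintype V] (N : ℕ) : ∀ (W B : Type u) [Fintype W] [Fintype B]
    (T : Tri W B V), Fintype.card W = N → Fintype.card W + 2 ≤ T.faces.ncard →
    ∀ w0 i0, ∃ Mw Mb, T.Ham Mw Mb ∧ Mw w0 = i0 := by
  classical
  induction N using Nat.strong_induction_on with
  | _ N ih =>
  intro W B _ _ T hN hP w0 i0
  by_cases hcut : T.NoCut w0
  · have hG : T.res.Good := ⟨⟨w0⟩, T.res_surj, by
      rwa [← Nat.card_eq_fintype_card (α := T.faces), Nat.card_coe_set_eq]⟩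
    obtain ⟨Mw, Mb, h1, h2⟩ := hG.base w0 i0 (fun p q wi hc => hcut p q wi ⟨hc.down, hc.out⟩)
    exact ⟨Mw, Mb, ⟨h1.compat, h1.conn⟩, h2⟩
  · unfold Tri.NoCut at hcut
    push Not at hcut
    obtain ⟨p, q, wi, hc, hp0, b1, hb1⟩ := hcut
    have hq0 : ¬ q (T.n i0 w0) := fun hh => hp0 (hc.down _ _ hh)
    have n1 : Nonempty {w // p w} := ⟨⟨_, hc.p_wi 0⟩⟩
    have n2 : Nonempty {b // ¬ q b} := ⟨⟨_, hq0⟩⟩
    have c1 : Fintype.card {w // p w} < Fintype.card W := Fintype.card_subtype_lt hp0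
    have c2 : Fintype.card {b // ¬ q b} < Fintype.card B :=
      Fintype.card_subtype_lt (x := b1) (not_not.mpr hb1)
    have c3 := hc.inn.card_B
    rw [Fintype.card_option] at c3
    have c4 : Fintype.card {b // ¬ q b} = Fintype.card B - Fintype.card {b // q b} :=
      Fintype.card_subtype_compl q
    have c5 := Fintype.card_subtype_le q
    have c6 := T.card_B
    have f1 := hc.inn.faces_le
    have f2 := hc.swap.inn.faces_le
    have f3 := hc.faces_add
    obtain ⟨M2, N2, h2, h2'⟩ := ih _ (by omega) _ _ hc.swap.inn rfl (by omega) ⟨_, hq0⟩ i0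
    obtain ⟨M1, N1, h1, h1'⟩ := ih _ (by omega) _ _ hc.inn rfl (by omega)
      ⟨_, hc.p_wi (N2 none)⟩ (N2 none)
    rw [h1.compat, show hc.inn.n _ = hc.nIn _ from rfl, hc.nIn_none _ _ (hc.q_wi _)] at h1'
    obtain ⟨Mw, Mb, h3, h4⟩ := hc.glue h1 h2 h1'
    exact ⟨Mw, Mb, h3, by rw [h3.compat, h4 _ hq0, h2']⟩

end Vale.Agent.P039
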