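import Mathlib

/-! Linear algebra of a two-dimensional cell structure: edges `E`, endpoints `a b : E → X`,
sides `l r : E → V`. -/

namespace Vale.Agent.P039

open Finset Module

section Lin
variable {K : Type*} [Field K] {E X V : Type*} [Fintype E] [Fintype X] [Fintype V]

/-- The difference map along two functions. -/
def dif (K : Type*) [Field K] {E X : Type*} (p q : E → X) : (X → K) →ₗ[K] (E → K) where
  toFun f e := f (p e) - f (q e)
  map_add' f g := by funext e; simp only [Pi.add_apply]; ring
  map_smul' c f := by funext e; simp only [Pi.smul_apply, smul_eq_mul, RingHom.id_apply]; ring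

omit [Fintype E] [Fintype X] in
theorem dif_apply (p q : E → X) (f : X → K) (e : E) : dif K p q f e = f (p e) - f (q e) := rfl

omit [Fintype E] in
theorem rank_dif (p q : E → X)
    (hX : ∀ f : X → K, (∀ e, f (p e) = f (q e)) → ∀ x y, f x = f y) :
    Fintype.card X ≤ finrank K (LinearMap.range (dif K p q)) + 1 := by
  have h1 := LinearMap.finrank_range_add_finrank_ker (dif K p q)
  rw [Module.finrank_fintype_fun_eq_card] at h1
  have h2 : LinearMap.ker (dif K p q) ≤ Submodule.span K {(fun _ => 1 : X → K)} := by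
    intro f hf
    rw [LinearMap.mem_ker] at hf
    have hc := hX f (fun e => by
      have := congrFun hf e
      rw [dif_apply] at this
      exact sub_eq_zero.mp this)
    rw [Submodule.mem_span_singleton]
    rcases isEmpty_or_nonempty X with h | ⟨⟨x0⟩⟩
    · exact ⟨0, funext fun x => (h.false x).elim⟩
    · exact ⟨f x0, funext fun x => by simp [hc x0 x]⟩
  have h3 := Submodule.finrank_mono h2
  have h4 : finrank K (Submodule.span K {(fun _ => 1 : X → K)}) ≤ 1 := by
    simpa using finrank_span_le_card (R := K) ({(fun _ => 1 : X → K)} : Set (X → K))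
  omega

/-- Cycles are boundaries when the Euler count is that of the sphere. -/
theorem lemH (a b : E → X) (l r : E → V)
    (orth : ∀ (g : V → K) (f : X → K), ∑ e, (g (l e) - g (r e)) * (f (b e) - f (a e)) = 0)
    (hX : ∀ f : X → K, (∀ e, f (b e) = f (a e)) → ∀ x y, f x = f y)
    (hV : ∀ g : V → K, (∀ e, g (l e) = g (r e)) → ∀ x y, g x = g y)
    (hc : Fintype.card E + 2 ≤ Fintype.card V + Fintype.card X)
    (z : E → K) (hz : ∀ f : X → K, ∑ e, z e * (f (b e) - f (a e)) = 0) :
    ∃ g : V → K, ∀ e, z e = g (l e) - g (r e) := by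
  classical
  set A : Matrix E X K := LinearMap.toMatrix' (dif K b a) with hA
  have hAl : A.mulVecLin = dif K b a := by
    rw [hA, ← Matrix.toLin'_apply', Matrix.toLin'_toMatrix']
  have hmem : ∀ y : E → K, (∀ f : X → K, ∑ e, y e * (f (b e) - f (a e)) = 0) →
      y ∈ LinearMap.ker A.transpose.mulVecLin := by
    intro y hy
    rw [LinearMap.mem_ker]
    funext x
    have := hy (Pi.single x 1)
    simp only [Matrix.mulVecLin_apply, Matrix.mulVec, dotProduct, Matrix.transpose_apply,
      Pi.zero_apply, hA, LinearMap.toMatrix'_apply, dif_apply]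
    rw [← this]
    refine Finset.sum_congr rfl fun e _ => ?_
    simp only [Pi.single_apply]
    ring
  have h1 := LinearMap.finrank_range_add_finrank_ker A.transpose.mulVecLin
  rw [Module.finrank_fintype_fun_eq_card] at h1
  have h2 : finrank K (LinearMap.range A.transpose.mulVecLin) =
      finrank K (LinearMap.range (dif K b a)) := by
    rw [← hAl]
    exact Matrix.rank_transpose A
  have h3 := rank_dif b a hX
  have h4 := rank_dif l r hV
  have hle : LinearMap.range (dif K l r) ≤ LinearMap.ker A.transpose.mulVecLin := by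
    rintro _ ⟨g, rfl⟩
    exact hmem _ (fun f => orth g f)
  have heq := Submodule.eq_of_le_of_finrank_le hle (by omega)
  have hz' := hmem z hz
  rw [← heq] at hz'
  obtain ⟨g, hg⟩ := hz'
  exact ⟨g, fun e => by rw [← hg]; rfl⟩

/-- The local Euler inequality. -/
theorem lemR (a b : E → X) (l r : E → V)
    (orth : ∀ (g : V → ℚ) (f : X → ℚ), ∑ e, (g (l e) - g (r e)) * (f (b e) - f (a e)) = 0)
    (hV : ∀ g : V → ℚ, (∀ e, g (l e) = g (r e)) → ∀ x y, g x = g y)
    (S : Finset V) (F : Finset E) (Y P : Finset X) (v0 : V) (hv0 : v0 ∉ S)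
    (hF : ∀ e, e ∉ F → l e ∉ S ∧ r e ∉ S)
    (hP : ∀ f : X → ℚ, (∀ x, x ∉ Y → f x = 0) → (∀ x ∈ P, f x = 0) →
      (∀ e ∈ F, f (b e) = f (a e)) → ∀ x, f x = 0) :
    S.card + Y.card ≤ F.card + P.card := by
  classical
  let Φ : ((V → ℚ) × (X → ℚ)) →ₗ[ℚ]
      ((F → ℚ) × (P → ℚ)) × (((Sᶜ : Finset V) → ℚ) × ((Yᶜ : Finset X) → ℚ)) :=
    LinearMap.prod
      (LinearMap.prod
        ((LinearMap.funLeft ℚ ℚ (Subtype.val : F → E)).comp
          (LinearMap.coprod (dif ℚ l r) (dif ℚ b a)))
        ((LinearMap.funLeft ℚ ℚ (Subtype.val : P → X)).comp (LinearMap.snd ℚ _ _)))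
      (LinearMap.prodMap (LinearMap.funLeft ℚ ℚ (Subtype.val : (Sᶜ : Finset V) → V))
        (LinearMap.funLeft ℚ ℚ (Subtype.val : (Yᶜ : Finset X) → X)))
  have hinj : Function.Injective Φ := by
    rw [← LinearMap.ker_eq_bot, LinearMap.ker_eq_bot']
    rintro ⟨g, f⟩ h
    have h1 : ∀ e ∈ F, (g (l e) - g (r e)) + (f (b e) - f (a e)) = 0 := fun e he =>
      congrFun (congrArg (fun t => t.1.1) h) ⟨e, he⟩
    have h2 : ∀ x ∈ P, f x = 0 := fun x hx => congrFun (congrArg (fun t => t.1.2) h) ⟨x, hx⟩
    have h3 : ∀ v, v ∉ S → g v = 0 := fun v hv =>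
      congrFun (congrArg (fun t => t.2.1) h) ⟨v, Finset.mem_compl.mpr hv⟩
    have h4 : ∀ x, x ∉ Y → f x = 0 := fun x hx =>
      congrFun (congrArg (fun t => t.2.2) h) ⟨x, Finset.mem_compl.mpr hx⟩
    have h5 : ∑ e, (g (l e) - g (r e)) ^ 2 = 0 := by
      have := orth g f
      rw [← neg_eq_zero, ← Finset.sum_neg_distrib] at this
      rw [← this]
      refine Finset.sum_congr rfl fun e _ => ?_
      by_cases he : e ∈ F
      · have := h1 e he
        have h' : f (b e) - f (a e) = -(g (l e) - g (r e)) := by linarith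
        rw [h']; ring
      · rw [h3 _ (hF e he).1, h3 _ (hF e he).2]; ring
    rw [Finset.sum_eq_zero_iff_of_nonneg (fun e _ => sq_nonneg _)] at h5
    have h6 : ∀ e, g (l e) = g (r e) := fun e => by
      have := h5 e (Finset.mem_univ e)
      exact sub_eq_zero.mp (pow_eq_zero_iff (two_ne_zero) |>.mp this)
    have h7 : ∀ v, g v = 0 := fun v => by rw [hV g h6 v v0, h3 v0 hv0]
    have h8 := hP f h4 h2 (fun e he => by
      have := h1 e he
      rw [h7, h7] at this
      linarith)
    ext v
    · exact h7 v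
    · exact h8 v
  have := LinearMap.finrank_le_finrank_of_injective hinj
  simp only [Module.finrank_prod, Module.finrank_fintype_fun_eq_card, Fintype.card_coe,
    Finset.card_compl] at this
  have hS := Finset.card_le_univ S
  have hY := Finset.card_le_univ Y
  omega

end Lin

end Vale.Agent.P039
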