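import Vale.Agent.P039.Hall

/-! The sign and the flux of one loop. -/

namespace Vale.Agent.P039

open Finset

/-- The sign attached to a Boolean. -/
def sg (b : Bool) : ℚ := if b then 1 else -1

theorem sh_ne1 : ∀ (a : ZMod 3) b, a + sh b ≠ a := by decide
theorem sh_ne2 : ∀ (a : ZMod 3) b, a - sh b ≠ a := by decide
theorem sh_ne3 : ∀ (a : ZMod 3) b, a - sh b ≠ a + sh b := by decide
theorem sh_cases : ∀ (a j : ZMod 3) b, j ≠ a → j = a + sh b ∨ j = a - sh b := by decide
theorem sh_t1 (a : ZMod 3) : a + sh true = a + 1 := rfl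
theorem sh_f1 (a : ZMod 3) : a + sh false = a + 2 := rfl
theorem sh_t2 : ∀ a : ZMod 3, a - sh true = a + 2 := by decide
theorem sh_f2 : ∀ a : ZMod 3, a - sh false = a + 1 := by decide

namespace Tri

variable {W B V : Type*} (T : Tri W B V) [Fintype W] [Fintype B]

theorem exists_flux (w0 : W) : ∃ a : W → ZMod 3 → ℚ, ∀ g : B → ℚ,
    ∑ w, ∑ i, a w i * (g (T.n (i + 1) w) - g (T.n (i + 2) w)) = ∑ b, (g b - g (T.n 0 w0)) := by
  classical
  have : Nonempty W := ⟨w0⟩
  let D := dif ℚ (fun e : W × ZMod 3 => T.n (e.2 + 1) e.1) (fun e => T.n (e.2 + 2) e.1)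
  let ψ : Module.Dual ℚ (B → ℚ) :=
    ∑ b : B, (LinearMap.proj (R := ℚ) (φ := fun _ : B => ℚ) b -
      LinearMap.proj (R := ℚ) (φ := fun _ : B => ℚ) (T.n 0 w0))
  have hψ : ∀ g, ψ g = ∑ b, (g b - g (T.n 0 w0)) := fun g => by
    simp [ψ, LinearMap.sum_apply]
  have hmem : ψ ∈ (LinearMap.ker D).dualAnnihilator := by
    rw [Submodule.mem_dualAnnihilator]
    intro g hg
    rw [LinearMap.mem_ker] at hg
    have h1 : ∀ w i k, g (T.n i w) = g (T.n k w) := fun w =>
      const3 (fun i => g (T.n i w)) (fun i => sub_eq_zero.mp (congrFun hg (w, i)))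
    have h2 := T.connX (Sum.elim (fun w => g (T.n 0 w)) g) (fun e => h1 _ _ _)
    rw [hψ]
    exact Finset.sum_eq_zero fun b _ => sub_eq_zero.mpr (h2 (Sum.inr b) (Sum.inr _))
  rw [← LinearMap.range_dualMap_eq_dualAnnihilator_ker] at hmem
  obtain ⟨φ, hφ⟩ := hmem
  refine ⟨fun w i => φ (fun e => if (w, i) = e then 1 else 0), fun g => ?_⟩
  rw [← hψ, ← hφ, LinearMap.dualMap_apply, LinearMap.pi_apply_eq_sum_univ, sum_edge]
  refine Finset.sum_congr rfl fun w _ => Finset.sum_congr rfl fun i _ => ?_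
  rw [smul_eq_mul, mul_comm]
  rfl

/-- A loop in the incidence structure of white vertices and faces. -/
structure Loop (w0 : W) (h : W → ZMod 3) (η : W → Bool) (σ : Equiv.Perm W) (C : Finset W)
    (u0 : W) : Prop where
  c0 : w0 ∉ C
  cu : u0 ∈ C
  cσ : ∀ w, σ w ∈ C ↔ w ∈ C
  step : ∀ w ∈ C, T.vw (σ w) (h (σ w) - sh (η (σ w))) = T.vw w (h w + sh (η w))
  inj : ∀ w w', w ≠ w0 → w' ≠ w0 → T.vw w (h w + sh (η w)) = T.vw w' (h w' + sh (η w')) → w = w'
  nr : ∀ w, w ≠ w0 → ∀ j, T.vw w (h w + sh (η w)) ≠ T.vw w0 j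
  conn : ∀ φ : W → ℚ, (∀ w ∈ C, φ (σ w) = φ w) → ∀ w ∈ C, φ w = φ u0

/-- A side of a loop. -/
structure Side (h : W → ZMod 3) (C : Finset W) (K : W ⊕ B → Prop) : Prop where
  yes : ∀ w ∈ C, K (Sum.inr (T.n (h w) w)) ↔ ¬ K (Sum.inl w)
  no : ∀ w i, ¬ (w ∈ C ∧ i = h w) → (K (Sum.inr (T.n i w)) ↔ K (Sum.inl w))

variable {T} {w0 : W} {h : W → ZMod 3} {η : W → Bool} {σ : Equiv.Perm W} {C : Finset W} {u0 : W}
  {K : W ⊕ B → Prop}

omit [Fintype W] [Fintype B] in
theorem Side.compl (hK : T.Side h C K) (K' : W ⊕ B → Prop) (hK' : ∀ x, K' x ↔ ¬ K x) :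
    T.Side h C K' :=
  ⟨fun w hw => by rw [hK', hK', hK.yes w hw], fun w i hw => by rw [hK', hK', hK.no w i hw]⟩

omit [Fintype W] [Fintype B] in
theorem Loop.injτ (hL : T.Loop w0 h η σ C u0) (w w' : W) (hw : w ∈ C) (hw' : w' ∈ C)
    (he : T.vw w (h w - sh (η w)) = T.vw w' (h w' - sh (η w'))) : w = w' := by
  obtain ⟨u, rfl⟩ := σ.surjective w
  obtain ⟨u', rfl⟩ := σ.surjective w'
  rw [hL.cσ] at hw hw'
  rw [hL.step u hw, hL.step u' hw'] at he
  rw [hL.inj u u' (fun hh => hL.c0 (hh ▸ hw)) (fun hh => hL.c0 (hh ▸ hw')) he]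

open Classical in
theorem Side.cardF (hK : T.Side h C K) :
    (univ.filter (fun e => K (T.ea e) ∨ K (T.eb e))).card =
      3 * (∑ w, if K (Sum.inl w) then 1 else 0) +
        (∑ w, if w ∈ C ∧ ¬ K (Sum.inl w) then 1 else 0) ∧
    (univ.filter (fun e => K (T.ea e) ∨ K (T.eb e))).card =
      3 * (∑ b, if K (Sum.inr b) then 1 else 0) +
        (∑ w, if w ∈ C ∧ K (Sum.inl w) then 1 else 0) := by
  have key : ∀ w, (∑ i, if K (T.ea (w, i)) ∨ K (T.eb (w, i)) then 1 else 0) =
      3 * (if K (Sum.inl w) then 1 else 0) + (if w ∈ C ∧ ¬ K (Sum.inl w) then 1 else 0) ∧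
      (∑ i, if K (T.ea (w, i)) ∨ K (T.eb (w, i)) then 1 else 0) =
      (∑ i, if K (T.eb (w, i)) then 1 else 0) + (if w ∈ C ∧ K (Sum.inl w) then 1 else 0) := by
    intro w
    rw [z3_sum _ (h w), z3_sum _ (h w)]
    have n1 := hK.no w (h w + 1) (fun hh => z3_ne1 _ hh.2)
    have n2 := hK.no w (h w + 2) (fun hh => z3_ne2 _ hh.2)
    by_cases hw : w ∈ C
    · have n3 := hK.yes w hw
      by_cases hk : K (Sum.inl w) <;> simp [ea, eb, hw, hk, n1, n2, n3]
    · have n3 := hK.no w (h w) (fun hh => hw hh.1)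
      by_cases hk : K (Sum.inl w) <;> simp [ea, eb, hw, hk, n1, n2, n3]
  rw [card_filter, sum_edge]
  constructor
  · rw [Finset.mul_sum, ← Finset.sum_add_distrib]
    exact Finset.sum_congr rfl fun w _ => (key w).1
  · rw [Finset.sum_congr rfl fun w _ => (key w).2, Finset.sum_add_distrib]
    congr 1
    rw [← sum_edge (fun e => if K (T.eb e) then 1 else 0), T.sum_edgeB, Finset.mul_sum]
    refine Finset.sum_congr rfl fun b _ => ?_
    simp [eb]

variable [Fintype V]

theorem Loop.exists_side (hT : T.Good) (hL : T.Loop w0 h η σ C u0) :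
    ∃ K, T.Side h C K ∧ ¬ K (Sum.inl w0) := by
  classical
  obtain ⟨f, hf⟩ := hT.cocyc (K := ZMod 2) (fun e => if e.1 ∈ C ∧ e.2 = h e.1 then 1 else 0)
    (fun g => by
      rw [sum_edge]
      have h1 : ∀ w, ∑ i, (if (w, i).1 ∈ C ∧ (w, i).2 = h (w, i).1 then (1 : ZMod 2) else 0) *
          (g (T.el (w, i)) - g (T.er (w, i))) =
          (if w ∈ C then g (T.vw w (h w + sh (η w))) else 0) -
          (if w ∈ C then g (T.vw w (h w - sh (η w))) else 0) := by
        intro w
        rw [z3_sum _ (h w)]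
        simp only [z3_ne1, z3_ne2, and_false, if_false, zero_mul, add_zero, and_true, el, er]
        have hz : ∀ a b : ZMod 2, a - b = b - a := by decide
        by_cases hw : w ∈ C
        · simp only [hw, if_true, one_mul]
          cases η w
          · rw [sh_f1, sh_f2, hz]
          · rw [sh_t1, sh_t2]
        · simp [hw]
      simp only [h1]
      rw [Finset.sum_sub_distrib, sub_eq_zero,
        ← Equiv.sum_comp σ (fun w => if w ∈ C then g (T.vw w (h w - sh (η w))) else 0)]
      refine Finset.sum_congr rfl fun w _ => ?_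
      by_cases hw : w ∈ C
      · rw [if_pos hw, if_pos ((hL.cσ w).mpr hw), hL.step w hw]
      · rw [if_neg hw, if_neg (fun hh => hw ((hL.cσ w).mp hh))])
  refine ⟨fun x => f x ≠ f (Sum.inl w0), ⟨fun w hw => ?_, fun w i hw => ?_⟩, fun hh => hh rfl⟩
  · have := hf (w, h w)
    rw [if_pos ⟨hw, rfl⟩] at this
    have hz : ∀ a b c : ZMod 2, 1 = a - b → (a ≠ c ↔ ¬ b ≠ c) := by decide
    exact hz _ _ _ this
  · have := hf (w, i)
    rw [if_neg hw] at this
    have hz : ∀ a b c : ZMod 2, 0 = a - b → (a ≠ c ↔ b ≠ c) := by decide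
    exact hz _ _ _ this

open Classical in
theorem Loop.side_euler (hT : T.Good) (hL : T.Loop w0 h η σ C u0) (hK : T.Side h C K) :
    (∑ b, if K (Sum.inr b) then 1 else 0) + 2 * (if K (Sum.inl w0) then 1 else 0) ≤
      (∑ w, if K (Sum.inl w) then 1 else 0) + 1 := by
  have := hT.ne
  let S : Finset (W ⊕ B) := univ.filter K
  let F : Finset (W × ZMod 3) := univ.filter (fun e => K (T.ea e) ∨ K (T.eb e))
  let Y : Finset V := univ.filter (fun v => ∃ x j, K x ∧ T.vx x j = v)
  have hS : ∀ x, x ∈ S ↔ K x := fun x => by simp only [S, mem_filter, mem_univ, true_and]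
  have hF : ∀ e, e ∈ F ↔ K (T.ea e) ∨ K (T.eb e) := fun x => by
    simp only [F, mem_filter, mem_univ, true_and]
  have hY : ∀ v, v ∈ Y ↔ ∃ x j, K x ∧ T.vx x j = v := fun x => by
    simp only [Y, mem_filter, mem_univ, true_and]
  have hx0 : ∃ x0, x0 ∉ S := by
    by_cases hu : K (Sum.inl u0)
    · exact ⟨Sum.inr (T.n (h u0) u0), fun hh => (hK.yes u0 hL.cu).mp ((hS _).mp hh) hu⟩
    · exact ⟨Sum.inl u0, fun hh => hu ((hS _).mp hh)⟩
  obtain ⟨x0, hx0⟩ := hx0
  have main := T.lemR_vert S F Y {T.vw u0 (h u0 + sh (η u0))} x0 hx0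
    (fun e he => by
      rw [hF] at he
      push Not at he
      rw [hS, hS]
      exact ⟨he.2, he.1⟩) (fun g g1 g2 g3 => by
      have a0 := g2 _ (mem_singleton_self _)
      have a1 : ∀ w ∈ C, g (T.vw w (h w + 1)) = g (T.vw w (h w + 2)) := fun w hw =>
        g3 (w, h w) ((hF _).mpr (by
          by_cases hk : K (Sum.inl w)
          · exact Or.inl hk
          · exact Or.inr ((hK.yes w hw).mpr hk)))
      have a2 : ∀ w ∈ C, ∀ j k, j ≠ h w → k ≠ h w → g (T.vw w j) = g (T.vw w k) := by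
        intro w hw j k hj hk
        rcases z3_cases j (h w) with rfl | rfl | rfl <;>
          rcases z3_cases k (h w) with rfl | rfl | rfl <;>
          first | rfl | exact absurd rfl hj | exact absurd rfl hk | exact a1 w hw
                | exact (a1 w hw).symm
      have a3 := hL.conn (fun w => g (T.vw w (h w + sh (η w)))) (fun w hw => by
        rw [← hL.step w hw]
        exact a2 _ ((hL.cσ w).mpr hw) _ _ (sh_ne1 _ _) (sh_ne2 _ _))
      have a4 : ∀ w ∈ C, ∀ j, j ≠ h w → g (T.vw w j) = 0 := fun w hw j hj => by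
        rw [a2 w hw j _ hj (sh_ne1 _ (η w)), a3 w hw, a0]
      have a5 : ∀ x j, ¬ K x → g (T.vx x j) = 0 := by
        intro x j hx
        by_cases hy : T.vx x j ∈ Y
        · obtain ⟨y, k, hy1, hy2⟩ := (hY _).mp hy
          by_contra hne
          refine hx (hT.fc K (T.vx x j) (fun e he => ?_) y x k j hy2 rfl hy1)
          refine (hK.no e.1 e.2 (fun hh => hne ?_)).symm
          rcases he with he | he
          · rw [← he]; exact a4 _ hh.1 _ (by rw [← hh.2]; exact z3_ne1 _)
          · rw [← he]; exact a4 _ hh.1 _ (by rw [← hh.2]; exact z3_ne2 _)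
        · exact g1 _ hy
      have a6 : ∀ e, g (T.el e) = g (T.er e) := by
        intro e
        by_cases he : e ∈ F
        · exact g3 e he
        · rw [hF] at he
          push Not at he
          exact (a5 (T.ea e) _ he.1).trans (a5 (T.ea e) _ he.1).symm
      intro v
      rw [T.connV hT.surj g a6 v _, a0])
  have cF := hK.cardF.1
  have cS : S.card = ∑ w, (if K (Sum.inl w) then 1 else 0) +
      ∑ b, (if K (Sum.inr b) then 1 else 0) := by
    rw [← Fintype.sum_sum_type (f := fun x => if K x then 1 else 0), card_filter]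
  let A : Finset W := univ.filter (fun w => w ≠ w0 ∧ (w ∈ C ∨ K (Sum.inl w)))
  have hA : ∀ w, w ∈ A ↔ w ≠ w0 ∧ (w ∈ C ∨ K (Sum.inl w)) := fun x => by
    simp only [A, mem_filter, mem_univ, true_and]
  have cA : A.card + (if K (Sum.inl w0) then 1 else 0) = ∑ w, (if K (Sum.inl w) then 1 else 0) +
      (∑ w, if w ∈ C ∧ ¬ K (Sum.inl w) then 1 else 0) := by
    have : (if K (Sum.inl w0) then 1 else 0) =
        ∑ w, if w = w0 then (if K (Sum.inl w) then 1 else 0) else 0 := by simp
    rw [card_filter, this, ← Finset.sum_add_distrib, ← Finset.sum_add_distrib]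
    refine Finset.sum_congr rfl fun w _ => ?_
    by_cases hw : w = w0
    · subst hw
      simp [hL.c0]
    · by_cases h1 : w ∈ C <;> by_cases h2 : K (Sum.inl w) <;> simp [hw, h1, h2]
  have hAY : A.image (fun w => T.vw w (h w + sh (η w))) ⊆ Y := by
    intro v hv
    obtain ⟨w, hw, rfl⟩ := mem_image.mp hv
    rw [hY]
    by_cases hk : K (Sum.inl w)
    · exact ⟨_, _, hk, rfl⟩
    · have hc : w ∈ C := ((hA w).mp hw).2.resolve_right hk
      exact ⟨_, _, (hK.yes w hc).mpr hk, T.compat _ _ _ (sh_ne1 _ _)⟩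
  have cI : (A.image (fun w => T.vw w (h w + sh (η w)))).card = A.card :=
    card_image_of_injOn (fun w hw w' hw' hh =>
      hL.inj w w' ((hA w).mp hw).1 ((hA w').mp hw').1 hh)
  have cY : A.card + 3 * (if K (Sum.inl w0) then 1 else 0) ≤ Y.card := by
    by_cases hk : K (Sum.inl w0)
    · have hd : Disjoint (A.image (fun w => T.vw w (h w + sh (η w)))) (univ.image (T.vw w0)) := by
        rw [Finset.disjoint_left]
        intro v hv hv'
        obtain ⟨w, hw, rfl⟩ := mem_image.mp hv
        obtain ⟨j, -, hj⟩ := mem_image.mp hv'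
        exact hL.nr w ((hA w).mp hw).1 j hj.symm
      have hs : (univ.image (T.vw w0)) ⊆ Y := by
        intro v hv
        obtain ⟨j, -, rfl⟩ := mem_image.mp hv
        exact (hY _).mpr ⟨_, _, hk, rfl⟩
      have := card_le_card (union_subset hAY hs)
      rw [card_union_of_disjoint hd, cI, card_image_of_injective _ (fun j k hh => T.vw_inj hh),
        card_univ, ZMod.card] at this
      rw [if_pos hk]
      omega
    · have := card_le_card hAY
      rw [if_neg hk]
      omega
  rw [card_singleton] at main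
  change F.card = _ at cF
  omega

open Classical in
omit [Fintype V] in
theorem Loop.orient (hL : T.Loop w0 h η σ C u0) (hK : T.Side h C K) (w : W) (hw : w ∈ C) :
    sg (η (σ w)) * (if K (Sum.inl (σ w)) then 1 else -1) =
      sg (η w) * (if K (Sum.inl w) then 1 else -1) := by
  have hw' := (hL.cσ w).mpr hw
  have hst := hL.step w hw
  have hj := T.vw_inj hst
  have hne : w ≠ σ w := fun hh => by
    rw [← hh] at hj
    exact sh_ne3 _ _ hj
  have key : ∀ i, i ≠ h w + sh (η w) →
      (∑ u, if T.vw u (h w + sh (η w)) = T.vw w (h w + sh (η w)) then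
        (if K (Sum.inl u) then (1 : ℚ) else 0) else 0) -
      (∑ b, if T.vb b (h w + sh (η w)) = T.vw w (h w + sh (η w)) then
        (if K (Sum.inr b) then (1 : ℚ) else 0) else 0) =
      (if i = h w then (if K (Sum.inl w) then 1 else -1) else 0) +
      (if i = h (σ w) then (if K (Sum.inl (σ w)) then 1 else -1) else 0) := by
    intro i hi
    rw [← Equiv.sum_comp (T.n i), ← Finset.sum_sub_distrib]
    simp only [T.compat i _ _ hi.symm]
    have val : ∀ u ∈ C, (if K (Sum.inl u) then (1 : ℚ) else 0) -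
        (if K (Sum.inr (T.n i u)) then 1 else 0) =
        (if i = h u then (if K (Sum.inl u) then 1 else -1) else 0) := by
      intro u hu
      by_cases hiu : i = h u
      · rw [if_pos hiu, hiu, hK.yes u hu]
        by_cases hk : K (Sum.inl u) <;> simp [hk]
      · rw [if_neg hiu, hK.no u i (fun hh => hiu hh.2), sub_self]
    rw [Fintype.sum_eq_add w (σ w) hne]
    · have e1 : T.vw (σ w) (h w + sh (η w)) = T.vw w (h w + sh (η w)) := by rw [← hst, hj]
      simp only [e1, if_true]
      rw [val w hw, val _ hw']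
    · intro u hu
      by_cases hv : T.vw u (h w + sh (η w)) = T.vw w (h w + sh (η w))
      · simp only [hv, if_true]
        rw [hK.no u i (fun hh => ?_), sub_self]
        rcases sh_cases (h u) (h w + sh (η w)) (η u) (by rw [← hh.2]; exact hi.symm) with e | e
        · refine hu.1 (hL.inj u w (fun e' => hL.c0 (e' ▸ hh.1)) (fun e' => hL.c0 (e' ▸ hw)) ?_)
          rw [← e, hv]
        · refine hu.2 (hL.injτ u _ hh.1 hw' ?_)
          rw [← e, hv, hst]
      · simp only [hv, if_false, sub_self]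
  have k1 := key _ (z3_ne1 (h w + sh (η w)))
  have k2 := key _ (z3_ne2 (h w + sh (η w)))
  rw [k1] at k2
  have z : ∀ (a a' : ZMod 3) (b b' : Bool), a' - sh b' = a + sh b →
      (a + sh b + 1 = a ↔ b = false) ∧ (a + sh b + 2 = a ↔ b = true) ∧
      (a + sh b + 1 = a' ↔ b' = true) ∧ (a + sh b + 2 = a' ↔ b' = false) := by decide
  obtain ⟨z1, z2, z3, z4⟩ := z _ _ _ _ hj
  simp only [z1, z2, z3, z4] at k2
  revert k2
  generalize (if K (Sum.inl w) then (1 : ℚ) else -1) = x
  generalize (if K (Sum.inl (σ w)) then (1 : ℚ) else -1) = y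
  cases η w <;> cases η (σ w) <;> simp only [sg] <;> intro k2 <;> simp at k2 ⊢ <;> linarith

theorem Loop.main (hT : T.Good) (hL : T.Loop w0 h η σ C u0) (a : W → ZMod 3 → ℚ)
    (ha : ∀ g : B → ℚ, ∑ w, ∑ i, a w i * (g (T.n (i + 1) w) - g (T.n (i + 2) w)) =
      ∑ b, (g b - g (T.n 0 w0))) :
    ∃ (o : ℕ) (κ : ℚ), 0 < κ ∧ 2 * o = C.card + 3 ∧
      (∏ w ∈ C, sg (η w)) * ∑ w ∈ C, (a w (h w + sh (η w)) - a w (h w - sh (η w))) =
        (-1) ^ o * κ := by
  classical
  obtain ⟨K, hK, hK0⟩ := hL.exists_side hT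
  have e1 := hL.side_euler hT hK
  obtain ⟨K', hK'⟩ : ∃ K' : W ⊕ B → Prop, ∀ x, K' x ↔ ¬ K x := ⟨_, fun _ => Iff.rfl⟩
  have e2 := hL.side_euler hT (hK.compl K' hK')
  have e3 := hK.cardF.1.symm.trans hK.cardF.2
  have e4 : (∑ w, if K (Sum.inl w) then 1 else 0) + (∑ w, if K' (Sum.inl w) then 1 else 0) =
      Fintype.card W := by
    rw [← Finset.sum_add_distrib, ← card_univ, card_eq_sum_ones]
    refine Finset.sum_congr rfl fun w _ => ?_
    by_cases hk : K (Sum.inl w) <;> simp [hk, hK']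
  have e5 : (∑ b, if K (Sum.inr b) then 1 else 0) + (∑ b, if K' (Sum.inr b) then 1 else 0) =
      Fintype.card W := by
    rw [← Finset.sum_add_distrib, ← T.card_B, ← card_univ, card_eq_sum_ones]
    refine Finset.sum_congr rfl fun w _ => ?_
    by_cases hk : K (Sum.inr w) <;> simp [hk, hK']
  have e6 : (C.filter (fun w => K (Sum.inl w))).card =
      (∑ w, if w ∈ C ∧ K (Sum.inl w) then 1 else 0) := by
    rw [← card_filter]; congr 1; ext w; simp
  have e7 : (C.filter (fun w => ¬ K (Sum.inl w))).card =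
      (∑ w, if w ∈ C ∧ ¬ K (Sum.inl w) then 1 else 0) := by
    rw [← card_filter]; congr 1; ext w; simp
  have e8 := card_filter_add_card_filter_not (s := C) (fun w => K (Sum.inl w))
  rw [if_neg hK0] at e1
  rw [if_pos ((hK' _).mpr hK0)] at e2
  have hs := hL.conn (fun w => sg (η w) * (if K (Sum.inl w) then 1 else -1))
    (fun w hw => hL.orient hK w hw)
  obtain ⟨s, hs1, hs2⟩ : ∃ s : ℚ, s * s = 1 ∧
      ∀ w ∈ C, sg (η w) = s * (if K (Sum.inl w) then 1 else -1) := by
    refine ⟨sg (η u0) * (if K (Sum.inl u0) then 1 else -1), ?_, fun w hw => ?_⟩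
    · cases η u0 <;> by_cases hk : K (Sum.inl u0) <;> simp [sg, hk]
    · rw [← hs w hw]
      by_cases hk : K (Sum.inl w) <;> simp [hk]
  refine ⟨(C.filter (fun w => ¬ K (Sum.inl w))).card,
    ((∑ b, if K (Sum.inr b) then 1 else 0 : ℕ) : ℚ), ?_, by omega, ?_⟩
  · exact Nat.cast_pos.mpr (by omega)
  have p1 : ∏ w ∈ C, sg (η w) = s * (-1) ^ (C.filter (fun w => ¬ K (Sum.inl w))).card := by
    rw [Finset.prod_congr rfl hs2, Finset.prod_mul_distrib, Finset.prod_const, Finset.prod_ite,
      Finset.prod_const, Finset.prod_const, one_pow, one_mul]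
    have : C.card = 2 * ((C.filter (fun w => K (Sum.inl w))).card + 1) + 1 := by omega
    rw [this, pow_succ, pow_mul, pow_two, hs1, one_pow, one_mul]
  have p2 := ha (fun b => if K (Sum.inr b) then 1 else 0)
  have p3 : ∀ w, ∑ i, a w i * ((if K (Sum.inr (T.n (i + 1) w)) then 1 else 0) -
      (if K (Sum.inr (T.n (i + 2) w)) then 1 else 0)) =
      if w ∈ C then s * (a w (h w + sh (η w)) - a w (h w - sh (η w))) else 0 := by
    intro w
    rw [z3_sum _ (h w)]
    simp only [z3_11, z3_12, z3_21, z3_22]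
    rw [hK.no w _ (fun hh => z3_ne1 _ hh.2), hK.no w _ (fun hh => z3_ne2 _ hh.2)]
    by_cases hw : w ∈ C
    · rw [hK.yes w hw, if_pos hw]
      have := hs2 w hw
      revert this
      cases η w
      · rw [sh_f1, sh_f2]
        by_cases hk : K (Sum.inl w)
        · simp only [hk, sg, if_true, not_true, if_false, Bool.false_eq_true]
          intro this
          have : s = -1 := by linarith
          rw [this]; ring
        · simp only [hk, sg, if_true, not_false_iff, if_false, Bool.false_eq_true]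
          intro this
          have : s = 1 := by linarith
          rw [this]; ring
      · rw [sh_t1, sh_t2]
        by_cases hk : K (Sum.inl w)
        · simp only [hk, sg, if_true, not_true, if_false]
          intro this
          have : s = 1 := by linarith
          rw [this]; ring
        · simp only [hk, sg, if_true, not_false_iff, if_false]
          intro this
          have : s = -1 := by linarith
          rw [this]; ring
    · rw [hK.no w _ (fun hh => hw hh.1), if_neg hw]
      ring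
  simp only [p3] at p2
  rw [hK.no w0 0 (fun hh => hL.c0 hh.1), if_neg hK0, Finset.sum_ite_mem, univ_inter,
    ← Finset.mul_sum] at p2
  simp only [sub_zero] at p2
  push_cast
  rw [← p2, p1]
  ring

end Tri

end Vale.Agent.P039
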