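import Vale.Agent.P039.Loop

/-! Generic facts on signs, determinants and power series. -/

namespace Vale.Agent.P039

open Finset PowerSeries

theorem sign_eq_one_of_odd {ι : Type*} [Fintype ι] [DecidableEq ι] (σ : Equiv.Perm ι)
    (h : ∀ u, Odd (univ.filter (fun w => σ.SameCycle u w)).card) : Equiv.Perm.sign σ = 1 := by
  rw [Equiv.Perm.sign_of_cycleType']
  refine Multiset.prod_eq_one fun x hx => ?_
  obtain ⟨n, hn, rfl⟩ := Multiset.mem_map.mp hx
  rw [Equiv.Perm.cycleType_def] at hn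
  obtain ⟨c, hc, rfl⟩ := Multiset.mem_map.mp hn
  have hc' : c ∈ σ.cycleFactorsFinset := hc
  obtain ⟨hc1, hc2⟩ := Equiv.Perm.mem_cycleFactorsFinset_iff.mp hc'
  obtain ⟨u, hu⟩ := hc1.nonempty_support
  have hu' : σ u ≠ u := by rw [← hc2 u hu]; exact Equiv.Perm.mem_support.mp hu
  have : c.support = univ.filter (fun w => σ.SameCycle u w) := by
    ext w
    rw [Equiv.Perm.cycle_is_cycleOf hu hc', Equiv.Perm.mem_support_cycleOf_iff' hu']
    simp
  simp only [Function.comp]
  rw [this, (h u).neg_one_pow, neg_neg]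

/-- The exponential series in `x X`. -/
noncomputable def ex (x : ℚ) : ℚ⟦X⟧ := rescale x (exp ℚ)

theorem ex_prod {ι : Type*} (s : Finset ι) (x : ι → ℚ) : ∏ i ∈ s, ex (x i) = ex (∑ i ∈ s, x i) := by
  classical
  induction s using Finset.induction_on with
  | empty => simp [ex]
  | insert a s ha ih =>
    rw [prod_insert ha, sum_insert ha, ih, ex, ex, ex, exp_mul_exp_eq_exp_add]

theorem ex_coeff0 (x : ℚ) : coeff 0 (ex x) = 1 := by simp [ex, coeff_rescale]
theorem ex_coeff1 (x : ℚ) : coeff 1 (ex x) = x := by simp [ex, coeff_rescale]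

theorem loop_factor (p q E : ℚ) :
    ∃ U : ℚ⟦X⟧, ex p * C E + ex q * C (-E) = X * U ∧ constantCoeff U = E * (p - q) := by
  have h0 : constantCoeff (ex p * C E + ex q * C (-E)) = 0 := by
    rw [← coeff_zero_eq_constantCoeff_apply, map_add, coeff_mul_C, coeff_mul_C, ex_coeff0,
      ex_coeff0]
    ring
  obtain ⟨U, hU⟩ := X_dvd_iff.mpr h0
  refine ⟨U, hU, ?_⟩
  rw [← coeff_zero_eq_constantCoeff_apply, ← coeff_succ_X_mul, ← hU, map_add, coeff_mul_C,
    coeff_mul_C, zero_add, ex_coeff1, ex_coeff1]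
  ring

theorem sum_ne_zero_of_good {α : Type*} [Fintype α] (F : α → ℚ⟦X⟧) (N : ℕ) (good : α → Prop)
    (h0 : ∀ x, ¬ good x → F x = 0)
    (h1 : ∀ x, good x → ∃ (k o : ℕ) (u : ℚ) (U : ℚ⟦X⟧), 0 < u ∧ 2 * o = N + 3 * k ∧
      F x = X ^ k * U ∧ constantCoeff U = (-1) ^ o * u)
    (hex : ∃ x, good x) : ∑ x, F x ≠ 0 := by
  classical
  choose! k o u U hu ho hF hU using h1
  obtain ⟨x0, hx0, hmin⟩ := Finset.exists_min_image (univ.filter good) k
    (by obtain ⟨x, hx⟩ := hex; exact ⟨x, by simp [hx]⟩)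
  simp only [mem_filter, mem_univ, true_and] at hx0 hmin
  intro hs
  have h2 : ∑ x, (-1) ^ o x0 * coeff (k x0) (F x) = 0 := by
    rw [← Finset.mul_sum, ← map_sum, hs, map_zero, mul_zero]
  have hsq : ((-1 : ℚ) ^ o x0) * (-1) ^ o x0 = 1 := by
    rw [← mul_pow]; simp
  have h3 : ∀ x, good x → k x = k x0 → (-1) ^ o x0 * coeff (k x0) (F x) = u x := by
    intro x hx hk
    have : o x = o x0 := by have := ho x hx; have := ho x0 hx0; omega
    rw [hF x hx, coeff_X_pow_mul', if_pos hk.le, hk, Nat.sub_self,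
      coeff_zero_eq_constantCoeff_apply, hU x hx, this, ← mul_assoc, hsq, one_mul]
  have h4 : 0 < ∑ x, (-1) ^ o x0 * coeff (k x0) (F x) := by
    refine Finset.sum_pos' (fun x _ => ?_) ⟨x0, mem_univ _, ?_⟩
    · by_cases hx : good x
      · by_cases hk : k x = k x0
        · rw [h3 x hx hk]; exact (hu x hx).le
        · have := hmin x hx
          rw [hF x hx, coeff_X_pow_mul', if_neg (by omega), mul_zero]
      · rw [h0 x hx, map_zero, mul_zero]
    · rw [h3 x0 hx0 rfl]; exact hu x0 hx0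
  exact h4.ne' h2

section Det
variable {ι V : Type*} [Fintype ι] [DecidableEq ι] [DecidableEq V]

/-- Incidence matrix of a choice function against a list of targets. -/
def inc (κ : ι → V) (c : ι → V) : Matrix ι ι ℚ := fun w' w => if c w = κ w' then 1 else 0

theorem inc_det (κ : ι → V) (hκ : Function.Injective κ) (c : ι → V) (π : Equiv.Perm ι)
    (h : ∀ w, c w = κ (π w)) : (inc κ c).det = ((Equiv.Perm.sign π : ℤ) : ℚ) := by
  rw [Matrix.det_apply', Finset.sum_eq_single π]
  · simp [inc, h]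
  · intro σ _ hσ
    obtain ⟨w, hw⟩ : ∃ w, σ w ≠ π w := by
      by_contra hh
      push Not at hh
      exact hσ (Equiv.ext hh)
    rw [Finset.prod_eq_zero (mem_univ w), mul_zero]
    simp only [inc, h]
    exact if_neg fun hh => hw (hκ hh).symm
  · simp

theorem inc_det_ne (κ : ι → V) (c : ι → V) (h : (inc κ c).det ≠ 0) :
    ∃ π : Equiv.Perm ι, ∀ w, c w = κ (π w) := by
  rw [Matrix.det_apply'] at h
  obtain ⟨σ, -, hσ⟩ := Finset.exists_ne_zero_of_sum_ne_zero h
  refine ⟨σ, fun w => ?_⟩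
  have := Finset.prod_ne_zero_iff.mp (right_ne_zero_of_mul hσ) w (mem_univ _)
  by_contra hh
  exact this (if_neg hh)

theorem inc_det_sub (κ : ι → V) (c : ι → Bool → V) :
    (inc κ (fun w => c w true) - inc κ (fun w => c w false)).det =
      ∑ η : ι → Bool, (∏ w, sg (η w)) * (inc κ (fun w => c w (η w))).det := by
  simp only [Matrix.det_apply', Finset.mul_sum]
  rw [Finset.sum_comm]
  refine Finset.sum_congr rfl fun σ _ => ?_
  have : ∀ w, (inc κ (fun w => c w true) - inc κ (fun w => c w false)) (σ w) w =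
      ∑ b ∈ (univ : Finset Bool), sg b * (if c w b = κ (σ w) then 1 else 0) := by
    intro w
    simp only [Matrix.sub_apply, inc, Fintype.sum_bool, sg, if_true, Bool.false_eq_true, if_false]
    ring
  simp only [this]
  rw [Finset.prod_univ_sum, Fintype.piFinset_univ, Finset.mul_sum]
  refine Finset.sum_congr rfl fun η _ => ?_
  rw [Finset.prod_mul_distrib]
  simp only [inc]
  ring

end Det

end Vale.Agent.P039
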