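import Vale.Agent.P039.Ser

/-! The signed sum and the base case. -/

namespace Vale.Agent.P039

open Finset PowerSeries

theorem sh_not1 : ∀ (a : ZMod 3) b, a + sh (!b) = a - sh b := by decide
theorem sh_not2 : ∀ (a : ZMod 3) b, a - sh (!b) = a + sh b := by decide
theorem sh_twice : ∀ (a : ZMod 3) b, a + sh b + sh b = a - sh b := by decide
theorem sg_not (b : Bool) : sg (!b) = - sg b := by cases b <;> simp [sg]

namespace Tri

variable {W B V : Type*} {T : Tri W B V} [Fintype W] [Fintype B] [Fintype V] [DecidableEq W]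

theorem Good.loop_sub (hT : T.Good) (w0 : W) (a : W → ZMod 3 → ℚ)
    (ha : ∀ g : B → ℚ, ∑ w, ∑ i, a w i * (g (T.n (i + 1) w) - g (T.n (i + 2) w)) =
      ∑ b, (g b - g (T.n 0 w0)))
    (h : {w // w ≠ w0} → ZMod 3) (η : {w // w ≠ w0} → Bool)
    (hμ : T.Valid w0 (fun w => h w + sh (η w))) (σ : Equiv.Perm {w // w ≠ w0})
    (hσ : ∀ w, T.vw (σ w) (h (σ w) - sh (η (σ w))) = T.vw w (h w + sh (η w)))
    (u : {w // w ≠ w0}) (C : Finset {w // w ≠ w0}) (hC : ∀ w, w ∈ C ↔ σ.SameCycle u w) :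
    ∃ (o : ℕ) (κ : ℚ), 0 < κ ∧ 2 * o = C.card + 3 ∧
      (∏ w ∈ C, sg (η w)) * ∑ w ∈ C, (a w (h w + sh (η w)) - a w (h w - sh (η w))) =
        (-1) ^ o * κ := by
  let h' : W → ZMod 3 := fun w => if hw : w ≠ w0 then h ⟨w, hw⟩ else 0
  let η' : W → Bool := fun w => if hw : w ≠ w0 then η ⟨w, hw⟩ else true
  have hh : ∀ w : {w // w ≠ w0}, h' w = h w := fun w => by simp only [h', dif_pos w.2]
  have hη : ∀ w : {w // w ≠ w0}, η' w = η w := fun w => by simp only [η', dif_pos w.2]
  have hm : ∀ w : {w // w ≠ w0}, (w : W) ∈ C.map (Function.Embedding.subtype _) ↔ w ∈ C :=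
    fun w => mem_map' _
  have hm' : ∀ w ∈ C.map (Function.Embedding.subtype _), ∃ u ∈ C, (u : W) = w :=
    fun w hw => mem_map.mp hw
  have h0 : w0 ∉ C.map (Function.Embedding.subtype _) := fun hw => by
    obtain ⟨u, -, hu⟩ := hm' _ hw
    exact u.2 hu
  have hL : T.Loop w0 h' η' (Equiv.Perm.ofSubtype σ) (C.map (Function.Embedding.subtype _)) u := by
    refine ⟨h0, (hm u).mpr ((hC u).mpr (Equiv.Perm.SameCycle.refl _ _)), fun w => ?_,
      fun w hw => ?_, fun w w' hw hw' he => ?_, fun w hw j => ?_, fun φ hφ w hw => ?_⟩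
    · by_cases hw : w ≠ w0
      · rw [Equiv.Perm.ofSubtype_apply_of_mem σ hw, hm, hm ⟨w, hw⟩, hC, hC,
          Equiv.Perm.sameCycle_apply_right]
      · rw [Equiv.Perm.ofSubtype_apply_of_not_mem σ hw]
    · obtain ⟨u, -, rfl⟩ := hm' w hw
      rw [Equiv.Perm.ofSubtype_apply_coe, hh, hh, hη, hη, hσ]
    · have := hμ.inj (a₁ := ⟨w, hw⟩) (a₂ := ⟨w', hw'⟩) (by
        simp only [← hh, ← hη]; exact he)
      exact congrArg Subtype.val this
    · have := hμ.nr ⟨w, hw⟩ j
      simp only [← hh, ← hη] at this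
      exact this
    · obtain ⟨v, hv, rfl⟩ := hm' w hw
      obtain ⟨m, rfl⟩ := ((hC v).mp hv).exists_nat_pow_eq
      clear hv hw
      induction m with
      | zero => rfl
      | succ m ih =>
        rw [pow_succ', Equiv.Perm.mul_apply, ← Equiv.Perm.ofSubtype_apply_coe, hφ, ih]
        rw [hm, hC]
        exact ⟨m, by simp⟩
  obtain ⟨o, κ, h1, h2, h3⟩ := hL.main hT a ha
  refine ⟨o, κ, h1, by rw [h2, card_map], ?_⟩
  rw [prod_map, sum_map] at h3
  simp only [Function.Embedding.coe_subtype, hh, hη] at h3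
  exact h3

omit [Fintype B] [Fintype V] [DecidableEq W] in
theorem valid_iff (w0 : W) (κ : {w // w ≠ w0} ≃ {v // ∀ j, v ≠ T.vw w0 j})
    (μ : {w // w ≠ w0} → ZMod 3) :
    T.Valid w0 μ ↔ ∃ π : Equiv.Perm {w // w ≠ w0}, ∀ w : {w // w ≠ w0},
      T.vw w (μ w) = κ (π w) := by
  constructor
  · intro h
    let f : {w // w ≠ w0} → {w // w ≠ w0} := fun w => κ.symm ⟨T.vw w (μ w), h.nr w⟩
    have hf : Function.Injective f := fun w w' hw =>
      h.inj (congrArg Subtype.val (κ.symm.injective hw))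
    refine ⟨Equiv.ofBijective f (Finite.injective_iff_bijective.mp hf), fun w => ?_⟩
    simp [f]
  · rintro ⟨π, hπ⟩
    refine ⟨fun w w' hw => ?_, fun w j => ?_⟩
    · simp only [hπ] at hw
      exact π.injective (κ.injective (Subtype.ext hw))
    · rw [hπ]; exact (κ _).2 j

variable [DecidableEq V]

theorem Good.det_pair (hT : T.Good) (w0 : W) (κ : {w // w ≠ w0} ≃ {v // ∀ j, v ≠ T.vw w0 j})
    (h : {w // w ≠ w0} → ZMod 3) (η : {w // w ≠ w0} → Bool)
    (hμ : T.Valid w0 (fun w => h w + sh (η w))) (hτ : T.Valid w0 (fun w => h w - sh (η w))) :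
    (inc (fun w => (κ w : V)) (fun w : {w // w ≠ w0} => T.vw w (h w + sh (η w)))).det *
    (inc (fun w => (κ w : V)) (fun w : {w // w ≠ w0} => T.vw w (h w - sh (η w)))).det = 1 := by
  obtain ⟨a, ha⟩ := T.exists_flux w0
  obtain ⟨π, hπ⟩ := (valid_iff w0 κ _).mp hμ
  obtain ⟨ρ, hρ⟩ := (valid_iff w0 κ _).mp hτ
  have hκ : Function.Injective (fun w => (κ w : V)) := fun w w' hw =>
    κ.injective (Subtype.ext hw)
  rw [inc_det _ hκ _ π hπ, inc_det _ hκ _ ρ hρ]
  have hs := sign_eq_one_of_odd (ρ⁻¹ * π) (fun u => by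
    obtain ⟨o, -, -, h2, -⟩ := hT.loop_sub w0 a ha h η hμ (ρ⁻¹ * π) (fun w => by
      rw [hρ, hπ]; simp) u (univ.filter (fun w => (ρ⁻¹ * π).SameCycle u w)) (fun w => by simp)
    rw [Nat.odd_iff]
    omega)
  rw [Equiv.Perm.sign_mul, Equiv.Perm.sign_inv] at hs
  rw [← Int.cast_mul, ← Units.val_mul, mul_comm, hs]
  simp

theorem Good.term_good (hT : T.Good) (w0 : W) (κ : {w // w ≠ w0} ≃ {v // ∀ j, v ≠ T.vw w0 j})
    (a : W → ZMod 3 → ℚ)
    (ha : ∀ g : B → ℚ, ∑ w, ∑ i, a w i * (g (T.n (i + 1) w) - g (T.n (i + 2) w)) =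
      ∑ b, (g b - g (T.n 0 w0)))
    (h : {w // w ≠ w0} → ZMod 3) (η0 : {w // w ≠ w0} → Bool)
    (hμ : T.Valid w0 (fun w => h w + sh (η0 w))) (hτ : T.Valid w0 (fun w => h w - sh (η0 w))) :
    ∃ (k o : ℕ) (u : ℚ) (U : ℚ⟦X⟧), 0 < u ∧ 2 * o = Fintype.card {w // w ≠ w0} + 3 * k ∧
      (∑ η : {w // w ≠ w0} → Bool, (∏ w : {w // w ≠ w0}, ex (a w (h w + sh (η w)))) *
        C ((inc (fun w => (κ w : V)) (fun w : {w // w ≠ w0} => T.vw w (h w + sh (η w)))).det *
          ((∏ w, sg (η w)) *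
          (inc (fun w => (κ w : V)) (fun w : {w // w ≠ w0} => T.vw w (h w - sh (η w)))).det))) =
        X ^ k * U ∧ constantCoeff U = (-1) ^ o * u := by
  classical
  obtain ⟨π, hπ⟩ := (valid_iff w0 κ _).mp hμ
  obtain ⟨ρ, hρ⟩ := (valid_iff w0 κ _).mp hτ
  obtain ⟨σ, hσ⟩ : ∃ σ : Equiv.Perm {w // w ≠ w0}, ∀ w, ρ (σ w) = π w :=
    ⟨ρ⁻¹ * π, fun w => by simp⟩
  let c : {w // w ≠ w0} → Quotient (Equiv.Perm.SameCycle.setoid σ) := Quotient.mk _
  have hc : ∀ w w', c w = c w' ↔ σ.SameCycle w w' := fun w w' => Quotient.eq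
  have hcσ : ∀ w, c (σ w) = c w := fun w => (hc _ _).mpr
    (Equiv.Perm.sameCycle_apply_left.mpr (Equiv.Perm.SameCycle.refl _ _))
  let e : (Quotient (Equiv.Perm.SameCycle.setoid σ) → Bool) → ({w // w ≠ w0} → Bool) :=
    fun φ w => xor (η0 w) (φ (c w))
  have he1 : ∀ φ (w : {w // w ≠ w0}), T.vw w (h w + sh (e φ w)) =
      κ (if φ (c w) then ρ w else π w) := by
    intro φ w
    simp only [e]
    cases φ (c w)
    · simp [hπ]
    · simp [sh_not1, hρ]
  have he2 : ∀ φ (w : {w // w ≠ w0}), T.vw w (h w - sh (e φ w)) =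
      κ (if φ (c w) then π w else ρ w) := by
    intro φ w
    simp only [e]
    cases φ (c w)
    · simp [hρ]
    · simp [sh_not2, hπ]
  have hmix : ∀ (φ : Quotient (Equiv.Perm.SameCycle.setoid σ) → Bool),
      Function.Injective (fun w => if φ (c w) then ρ w else π w) := by
    intro φ w w' hw
    simp only at hw
    by_cases h1 : φ (c w) <;> by_cases h2 : φ (c w')
    · rw [if_pos h1, if_pos h2] at hw; exact ρ.injective hw
    · rw [if_pos h1, if_neg h2, ← hσ] at hw
      rw [ρ.injective hw, hcσ] at h1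
      exact absurd h1 h2
    · rw [if_neg h1, if_pos h2, ← hσ] at hw
      rw [← ρ.injective hw, hcσ] at h2
      exact absurd h2 h1
    · rw [if_neg h1, if_neg h2] at hw; exact π.injective hw
  have hv1 : ∀ φ, T.Valid w0 (fun w => h w + sh (e φ w)) := fun φ =>
    ⟨fun w w' hw => by
      simp only [he1] at hw
      exact hmix φ (κ.injective (Subtype.ext hw)), fun w j => by rw [he1]; exact (κ _).2 j⟩
  have hv2 : ∀ φ, T.Valid w0 (fun w => h w - sh (e φ w)) := fun φ =>
    ⟨fun w w' hw => by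
      simp only [he2] at hw
      have := κ.injective (Subtype.ext hw)
      refine hmix (fun q => !φ q) ?_
      simpa only [Bool.not_eq_true', ← Bool.not_eq_true, ite_not] using this,
      fun w j => by rw [he2]; exact (κ _).2 j⟩
  have hsum : ∑ φ : Quotient (Equiv.Perm.SameCycle.setoid σ) → Bool,
      ∏ w : {w // w ≠ w0}, (ex (a w (h w + sh (e φ w))) * C (sg (e φ w))) =
      (∑ η : {w // w ≠ w0} → Bool, (∏ w : {w // w ≠ w0}, ex (a w (h w + sh (η w)))) *
        C ((inc (fun w => (κ w : V)) (fun w : {w // w ≠ w0} => T.vw w (h w + sh (η w)))).det *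
          ((∏ w, sg (η w)) *
          (inc (fun w => (κ w : V)) (fun w : {w // w ≠ w0} => T.vw w (h w - sh (η w)))).det))) := by
    refine Finset.sum_of_injOn e (fun φ _ φ' _ hφ => ?_) (fun _ _ => mem_coe.mpr (mem_univ _))
      (fun η _ hη => ?_) (fun φ _ => ?_)
    · funext q
      obtain ⟨w, rfl⟩ := Quotient.exists_rep q
      have := congrFun hφ w
      simp only [e] at this
      exact Bool.xor_right_inj.mp this
    · by_contra hne
      apply hη
      have n1 := right_ne_zero_of_mul hne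
      rw [ne_eq, ← map_zero C, C_injective.eq_iff] at n1
      have v1 := (valid_iff w0 κ (fun w => h w + sh (η w))).mpr
        (inc_det_ne _ _ (left_ne_zero_of_mul n1))
      have v2 := (valid_iff w0 κ (fun w => h w - sh (η w))).mpr
        (inc_det_ne _ _ (right_ne_zero_of_mul (right_ne_zero_of_mul n1)))
      have key : ∀ w, xor (η0 (σ w)) (η (σ w)) = xor (η0 w) (η w) := by
        intro w
        have s1 : T.vw (σ w) (h (σ w) - sh (η0 (σ w))) = T.vw w (h w + sh (η0 w)) := by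
          rw [hρ, hπ, hσ]
        have bb : ∀ x y : Bool, x = y ∨ y = !x := by decide
        rcases bb (η0 w) (η w) with b1 | b1 <;> rcases bb (η0 (σ w)) (η (σ w)) with b2 | b2
        · rw [b1, b2]; simp
        · have := v1.inj (a₁ := σ w) (a₂ := w) (by simp only [b2, ← b1, sh_not1, s1])
          rw [this]
        · have := v2.inj (a₁ := σ w) (a₂ := w) (by simp only [← b2, b1, sh_not2, s1])
          rw [this]
        · rw [b1, b2]; simp
      have key2 : ∀ w w', σ.SameCycle w w' → xor (η0 w) (η w) = xor (η0 w') (η w') := by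
        intro w w' hw
        obtain ⟨m, rfl⟩ := hw.exists_nat_pow_eq
        clear hw
        induction m with
        | zero => rfl
        | succ m ih => rw [pow_succ', Equiv.Perm.mul_apply, key, ih]
      refine ⟨Quotient.lift (fun w => xor (η0 w) (η w)) key2, mem_coe.mpr (mem_univ _), ?_⟩
      funext w
      simp [e, c]
    · rw [Finset.prod_mul_distrib, ← map_prod, mul_left_comm, hT.det_pair w0 κ h _ (hv1 φ) (hv2 φ),
        mul_one]
  rw [← hsum]
  have hfib : ∀ φ : Quotient (Equiv.Perm.SameCycle.setoid σ) → Bool,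
      ∏ w : {w // w ≠ w0}, (ex (a w (h w + sh (e φ w))) * C (sg (e φ w))) =
      ∏ q, ∏ w ∈ univ.filter (fun w => c w = q),
        (ex (a w (h w + sh (xor (η0 w) (φ q)))) * C (sg (xor (η0 w) (φ q)))) := by
    intro φ
    rw [← Finset.prod_fiberwise univ c]
    refine Finset.prod_congr rfl fun q _ => Finset.prod_congr rfl fun w hw => ?_
    rw [← (mem_filter.mp hw).2]
  simp only [hfib]
  rw [← Fintype.piFinset_univ, ← Finset.prod_univ_sum (fun _ => (univ : Finset Bool))
    (fun q b => ∏ w ∈ univ.filter (fun w => c w = q),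
        (ex (a w (h w + sh (xor (η0 w) b))) * C (sg (xor (η0 w) b))))]
  have hq : ∀ q, ∃ (o : ℕ) (u : ℚ) (U : ℚ⟦X⟧), 0 < u ∧
      2 * o = (univ.filter (fun w => c w = q)).card + 3 ∧
      (∑ b : Bool, ∏ w ∈ univ.filter (fun w => c w = q),
        (ex (a w (h w + sh (xor (η0 w) b))) * C (sg (xor (η0 w) b)))) = X * U ∧
      constantCoeff U = (-1) ^ o * u := by
    intro q
    obtain ⟨u, rfl⟩ := Quotient.exists_rep q
    obtain ⟨o, κ', h1, h2, h3⟩ := hT.loop_sub w0 a ha h η0 hμ σ (fun w => by rw [hρ, hπ, hσ]) u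
      (univ.filter (fun w => c w = c u)) (fun w => by
        rw [mem_filter, hc]
        simp only [mem_univ, true_and]
        exact Equiv.Perm.sameCycle_comm)
    obtain ⟨U, hU1, hU2⟩ := loop_factor
      (∑ w ∈ univ.filter (fun w => c w = c u), a w (h w + sh (η0 w)))
      (∑ w ∈ univ.filter (fun w => c w = c u), a w (h w - sh (η0 w)))
      (∏ w ∈ univ.filter (fun w => c w = c u), sg (η0 w))
    refine ⟨o, κ', U, h1, h2, ?_, ?_⟩
    · rw [← hU1, Fintype.sum_bool, add_comm]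
      simp only [Bool.xor_true, Bool.xor_false, sh_not1, sg_not]
      rw [Finset.prod_mul_distrib, Finset.prod_mul_distrib, ex_prod, ex_prod, ← map_prod,
        ← map_prod, Finset.prod_neg, Odd.neg_one_pow (by
          rw [Nat.odd_iff]
          change _ = (univ.filter (fun w => c w = ⟦u⟧)).card + 3 at h2
          omega), neg_one_mul]
    · rw [hU2, ← h3, Finset.sum_sub_distrib]
  choose o u U hu ho hF hU using hq
  refine ⟨Fintype.card (Quotient (Equiv.Perm.SameCycle.setoid σ)), ∑ q, o q, ∏ q, u q, ∏ q, U q,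
    Finset.prod_pos (fun q _ => hu q), ?_, ?_, ?_⟩
  · rw [Finset.mul_sum, Finset.sum_congr rfl (fun q _ => ho q), Finset.sum_add_distrib,
      ← card_univ, card_eq_sum_card_fiberwise (f := c) (s := univ) (t := univ)
        (fun _ _ => mem_coe.mpr (mem_univ _))]
    simp [mul_comm]
  · rw [Finset.prod_congr rfl (fun q _ => hF q), Finset.prod_mul_distrib, Finset.prod_const,
      card_univ]
  · rw [map_prod, Finset.prod_congr rfl (fun q _ => hU q), Finset.prod_mul_distrib,
      Finset.prod_pow_eq_pow_sum]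

omit [DecidableEq W] [DecidableEq V] in
/-- The base case. -/
theorem Good.base (hT : T.Good) (w0 : W) (i0 : ZMod 3) (hN : T.NoCut w0) :
    ∃ Mw Mb, T.Ham Mw Mb ∧ Mw w0 = i0 := by
  classical
  obtain ⟨a, ha⟩ := T.exists_flux w0
  let κ : {w // w ≠ w0} ≃ {v // ∀ j, v ≠ T.vw w0 j} :=
    Fintype.equivOfCardEq (hT.card_nonroot w0).symm
  let P : ({w // w ≠ w0} → ZMod 3) → Matrix {w // w ≠ w0} {w // w ≠ w0} ℚ :=
    fun μ => inc (fun w => (κ w : V)) (fun w : {w // w ≠ w0} => T.vw w (μ w))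
  have hne := sum_ne_zero_of_good (fun h : {w // w ≠ w0} → ZMod 3 =>
      ∑ η : {w // w ≠ w0} → Bool, (∏ w : {w // w ≠ w0}, ex (a w (h w + sh (η w)))) *
        C ((P (fun w => h w + sh (η w))).det * ((∏ w, sg (η w)) *
          (P (fun w => h w - sh (η w))).det))) (Fintype.card {w // w ≠ w0})
    (fun h => ∃ η : {w // w ≠ w0} → Bool,
      T.Valid w0 (fun w => h w + sh (η w)) ∧ T.Valid w0 (fun w => h w - sh (η w)))
    (fun h hh => Finset.sum_eq_zero fun η _ => by
      by_contra hne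
      have n1 := right_ne_zero_of_mul hne
      rw [ne_eq, ← map_zero C, C_injective.eq_iff] at n1
      exact hh ⟨η, (valid_iff w0 κ (fun w => h w + sh (η w))).mpr
        (inc_det_ne _ _ (left_ne_zero_of_mul n1)), (valid_iff w0 κ (fun w => h w - sh (η w))).mpr
        (inc_det_ne _ _ (right_ne_zero_of_mul (right_ne_zero_of_mul n1)))⟩)
    (fun h ⟨η, h1, h2⟩ => hT.term_good w0 κ a ha h η h1 h2) (hT.exists_pair w0 hN)
  have hre : (∑ h : {w // w ≠ w0} → ZMod 3,
      ∑ η : {w // w ≠ w0} → Bool, (∏ w : {w // w ≠ w0}, ex (a w (h w + sh (η w)))) *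
        C ((P (fun w => h w + sh (η w))).det * ((∏ w, sg (η w)) *
          (P (fun w => h w - sh (η w))).det))) =
      ∑ μ : {w // w ≠ w0} → ZMod 3, (∏ w : {w // w ≠ w0}, ex (a w (μ w))) *
        C ((P μ).det * (P (fun w => μ w + 1) - P (fun w => μ w + 2)).det) := by
    have e1 : ∀ μ : {w // w ≠ w0} → ZMod 3, (P (fun w => μ w + 1) - P (fun w => μ w + 2)).det =
        ∑ η : {w // w ≠ w0} → Bool, (∏ w, sg (η w)) * (P (fun w => μ w + sh (η w))).det :=
      fun μ => inc_det_sub _ (fun (w : {w // w ≠ w0}) b => T.vw w (μ w + sh b))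
    simp only [e1, Finset.mul_sum, map_sum]
    rw [Finset.sum_comm]
    refine Eq.trans (Finset.sum_congr rfl fun η _ => ?_) Finset.sum_comm
    symm
    rw [← Equiv.sum_comp (Equiv.addRight (fun w => sh (η w)))]
    refine Finset.sum_congr rfl fun h _ => ?_
    simp only [Equiv.coe_addRight, Pi.add_apply, sh_twice]
    rfl
  rw [hre] at hne
  obtain ⟨μ, -, hμ⟩ := Finset.exists_ne_zero_of_sum_ne_zero hne
  have n1 := right_ne_zero_of_mul hμ
  rw [ne_eq, ← map_zero C, C_injective.eq_iff] at n1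
  have v1 := (valid_iff w0 κ μ).mpr (inc_det_ne _ _ (left_ne_zero_of_mul n1))
  have d1 := right_ne_zero_of_mul n1
  let μ' : W → ZMod 3 := fun w => if hw : w ≠ w0 then μ ⟨w, hw⟩ else i0 + 1
  have hμ' : ∀ w (hw : w ≠ w0), μ' w = μ ⟨w, hw⟩ := fun w hw => by simp only [μ', dif_pos hw]
  have hroot : ∀ w j, T.vw w (μ' w) = T.vw w0 j → w = w0 := by
    intro w j hw
    by_contra h
    rw [hμ' w h] at hw
    exact v1.nr ⟨w, h⟩ j hw
  refine hT.ham_of_nonsing w0 i0 μ' (by simp [μ']) (fun w w' hw => ?_) hroot (fun g g1 g2 => ?_)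
  · simp only at hw
    by_cases h1 : w = w0
    · rw [h1] at hw
      rw [h1, hroot w' _ hw.symm]
    · by_cases h2 : w' = w0
      · rw [h2] at hw
        rw [h2, hroot w _ hw]
      · rw [hμ' w h1, hμ' w' h2] at hw
        exact congrArg Subtype.val (v1.inj (a₁ := ⟨w, h1⟩) (a₂ := ⟨w', h2⟩) hw)
  · have hg : ∀ v : V, ∑ w', g (κ w') * (if v = (κ w' : V) then 1 else 0) = g v := by
      intro v
      by_cases hv : ∀ j, v ≠ T.vw w0 j
      · rw [Finset.sum_eq_single (κ.symm ⟨v, hv⟩)]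
        · simp
        · intro w' _ hw'
          rw [if_neg, mul_zero]
          intro hh
          apply hw'
          rw [Equiv.eq_symm_apply]
          exact Subtype.ext hh.symm
        · simp
      · push Not at hv
        obtain ⟨j, rfl⟩ := hv
        rw [g1]
        exact Finset.sum_eq_zero fun w' _ => by rw [if_neg ((κ w').2 j).symm, mul_zero]
    have h0 := Matrix.eq_zero_of_vecMul_eq_zero d1 (v := fun w' => g (κ w')) (by
      funext w
      simp only [Matrix.vecMul, dotProduct, Matrix.sub_apply, P, inc, mul_sub,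
        Finset.sum_sub_distrib, hg, Pi.zero_apply]
      have := g2 w w.2
      rw [hμ' w w.2] at this
      exact sub_eq_zero.mpr this)
    intro v
    rw [← hg v]
    exact Finset.sum_eq_zero fun w' _ => by rw [congrFun h0 w', Pi.zero_apply, zero_mul]

end Tri

end Vale.Agent.P039
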