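import Vale.Agent.P039.Tri

/-! From a nonsingular face assignment to a connected two-factor. -/

namespace Vale.Agent.P039

open Finset

theorem const3 {α : Type*} (φ : ZMod 3 → α) (h : ∀ i, φ (i + 1) = φ (i + 2)) (j k : ZMod 3) :
    φ j = φ k := by
  have a1 := h (j + 1)
  have a2 := h (j + 2)
  rw [z3_11, z3_12] at a1
  rw [z3_21, z3_22] at a2
  rcases z3_cases k j with rfl | rfl | rfl
  · rfl
  · exact a2
  · exact a1.symm

theorem eqvGen_const {α β : Type*} {r : α → α → Prop} (φ : α → β)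
    (h : ∀ x y, r x y → φ x = φ y) {x y : α} (hxy : Relation.EqvGen r x y) : φ x = φ y := by
  induction hxy with
  | rel x y hr => exact h x y hr
  | refl x => rfl
  | symm x y _ ih => exact ih.symm
  | trans x y z _ _ ih1 ih2 => exact ih1.trans ih2

namespace Tri

variable {W B V : Type*} (T : Tri W B V)

/-- A perfect matching whose complement is connected. -/
structure Ham (Mw : W → ZMod 3) (Mb : B → ZMod 3) : Prop where
  compat : ∀ w i, Mw w = i ↔ Mb (T.n i w) = i
  conn : ∀ (p : W → Prop) (q : B → Prop), (∀ w i, i ≠ Mw w → (p w ↔ q (T.n i w))) →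
    ((∀ w, p w) ∧ ∀ b, q b) ∨ ((∀ w, ¬ p w) ∧ ∀ b, ¬ q b)

variable [Fintype W] [Fintype B]

omit [Fintype B] in
theorem sum_nonM_W {R : Type*} [Semiring R] (Mw : W → ZMod 3) (F : W → R) :
    ∑ e : W × ZMod 3, (if e.2 ≠ Mw e.1 then F e.1 else 0) = 2 * ∑ w, F w := by
  rw [sum_edge, Finset.mul_sum]
  refine Finset.sum_congr rfl fun w _ => ?_
  rw [z3_sum _ (Mw w)]
  simp only [z3_ne1, z3_ne2, ne_eq, not_true, not_false_iff, if_true, if_false, two_mul, zero_add]

theorem sum_nonM_B {R : Type*} [Semiring R] (Mw : W → ZMod 3) (Mb : B → ZMod 3)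
    (hc : ∀ w i, Mw w = i ↔ Mb (T.n i w) = i) (G : B → R) :
    ∑ e : W × ZMod 3, (if e.2 ≠ Mw e.1 then G (T.n e.2 e.1) else 0) = 2 * ∑ b, G b := by
  rw [T.sum_edgeB, Finset.mul_sum]
  refine Finset.sum_congr rfl fun b _ => ?_
  have : ∀ i, (i ≠ Mw ((T.n i).symm b)) ↔ i ≠ Mb b := by
    intro i
    have := hc ((T.n i).symm b) i
    rw [Equiv.apply_symm_apply] at this
    rw [ne_eq, ne_eq, eq_comm, this, eq_comm]
  simp only [this, Equiv.apply_symm_apply]
  rw [z3_sum _ (Mb b)]
  simp only [z3_ne1, z3_ne2, ne_eq, not_true, not_false_iff, if_true, if_false, two_mul, zero_add]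

theorem exists_Mb (Mw : W → ZMod 3) (h : Function.Injective (fun w => T.n (Mw w) w)) :
    ∃ Mb : B → ZMod 3, ∀ w i, Mw w = i ↔ Mb (T.n i w) = i := by
  have hb : Function.Bijective (fun w => T.n (Mw w) w) :=
    (Fintype.bijective_iff_injective_and_card _).mpr ⟨h, T.card_B.symm⟩
  let Φ := Equiv.ofBijective _ hb
  refine ⟨fun b => Mw (Φ.symm b), fun w i => ⟨?_, ?_⟩⟩
  · rintro rfl
    have : Φ.symm (T.n (Mw w) w) = w := Φ.symm_apply_apply w
    simp only [this]
  · intro hi
    have h1 : T.n (Mw (Φ.symm (T.n i w))) (Φ.symm (T.n i w)) = T.n i w := Φ.apply_symm_apply _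
    have hi' : Mw (Φ.symm (T.n i w)) = i := hi
    rw [hi'] at h1
    rw [← (T.n i).injective h1, hi']

variable [Fintype V] {T}

theorem Good.conn_of_assign (hT : T.Good) (w0 : W) (Mw : W → ZMod 3) (Mb : B → ZMod 3)
    (hc : ∀ w i, Mw w = i ↔ Mb (T.n i w) = i) (μ : W → ZMod 3) (hμ : ∀ w, μ w ≠ Mw w)
    (hinj : Function.Injective (fun w => T.vw w (μ w)))
    (hroot : ∀ w j, T.vw w (μ w) = T.vw w0 j → w = w0) : T.Ham Mw Mb := by
  classical
  have := hT.ne
  refine ⟨hc, fun p q hpq => ?_⟩
  let Pp : W ⊕ B → Prop := Sum.elim p q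
  by_contra hcon
  have hk0 : ∃ k0, ¬ (Pp k0 ↔ Pp (Sum.inl w0)) := by
    by_contra h
    push Not at h
    apply hcon
    by_cases h0 : p w0
    · exact Or.inl ⟨fun w => (h (Sum.inl w)).mpr h0, fun b => (h (Sum.inr b)).mpr h0⟩
    · exact Or.inr ⟨fun w hw => h0 ((h (Sum.inl w)).mp hw), fun b hb => h0 ((h (Sum.inr b)).mp hb)⟩
  obtain ⟨k0, hk0⟩ := hk0
  let rel : W ⊕ B → W ⊕ B → Prop := fun x y => ∃ e, e.2 ≠ Mw e.1 ∧ x = T.ea e ∧ y = T.eb e
  let K : W ⊕ B → Prop := fun x => Relation.EqvGen rel k0 x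
  have hK0 : ¬ K (Sum.inl w0) := by
    intro h
    apply hk0
    have := eqvGen_const Pp (fun x y hxy => by
      obtain ⟨e, he, rfl, rfl⟩ := hxy
      exact propext (hpq e.1 e.2 he)) h
    rw [this]
  have hKe : ∀ e : W × ZMod 3, e.2 ≠ Mw e.1 → (K (T.ea e) ↔ K (T.eb e)) := fun e he =>
    ⟨fun h => Relation.EqvGen.trans _ _ _ h (Relation.EqvGen.rel _ _ ⟨e, he, rfl, rfl⟩),
     fun h => Relation.EqvGen.trans _ _ _ h
      (Relation.EqvGen.symm _ _ (Relation.EqvGen.rel _ _ ⟨e, he, rfl, rfl⟩))⟩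
  obtain ⟨g, hg⟩ := hT.cyc (K := ZMod 2)
    (fun e => if e.2 ≠ Mw e.1 ∧ K (T.ea e) then 1 else 0) (fun f => by
      have h1 := sum_nonM_W Mw (fun w => if K (Sum.inl w) then f (Sum.inl w) else 0)
      have h2 := T.sum_nonM_B Mw Mb hc (fun b => if K (Sum.inr b) then f (Sum.inr b) else 0)
      have h20 : (2 : ZMod 2) = 0 := rfl
      rw [h20, zero_mul] at h1 h2
      have h3 := congrArg₂ (· - ·) h2 h1
      simp only [sub_zero] at h3
      rw [← Finset.sum_sub_distrib] at h3
      refine Eq.trans (Finset.sum_congr rfl fun e _ => ?_) h3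
      by_cases he : e.2 ≠ Mw e.1
      · have := hKe e he
        simp only [ea, eb] at this ⊢
        by_cases hk : K (Sum.inl e.1)
        · simp [he, hk, this.mp hk]
        · simp [hk, mt this.mpr hk]
      · simp [he])
  have hz0 : ∀ e, ¬ (e.2 ≠ Mw e.1 ∧ K (T.ea e)) → g (T.el e) = g (T.er e) := by
    intro e he
    have := hg e
    rw [if_neg he] at this
    exact (sub_eq_zero.mp this.symm)
  have hz1 : ∀ e, e.2 ≠ Mw e.1 → K (T.ea e) → g (T.el e) ≠ g (T.er e) := by
    intro e he hk h
    have := hg e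
    rw [if_pos ⟨he, hk⟩, h, sub_self] at this
    exact one_ne_zero this
  have hconst : ∀ x, ¬ K x → ∀ j k, g (T.vx x j) = g (T.vx x k) := by
    intro x hx
    apply const3
    intro i
    cases x with
    | inl w => exact hz0 (w, i) (fun h => hx h.2)
    | inr b =>
      have := hz0 ((T.n i).symm b, i) (fun h => hx (by
        have := (hKe _ h.1).mp h.2
        simpa only [eb, Equiv.apply_symm_apply] using this))
      simp only [el, er] at this
      simp only [vx, Sum.elim_inr]
      rw [T.vb_eq b i _ (z3_ne1 i), T.vb_eq b i _ (z3_ne2 i), this]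
  let R : Finset V := univ.filter (fun v => g v = g (T.vw w0 0))
  let F : Finset (W × ZMod 3) := univ.filter (fun e => T.el e ∈ R ∨ T.er e ∈ R)
  let Y : Finset (W ⊕ B) := univ.filter (fun x => ∃ j, T.vx x j ∈ R)
  have hR : ∀ v, v ∈ R ↔ g v = g (T.vw w0 0) := fun v => by simp [R]
  have hF : ∀ e, e ∈ F ↔ (T.el e ∈ R ∨ T.er e ∈ R) := fun e => by simp only [F, mem_filter, mem_univ, true_and]
  have hY : ∀ x, x ∈ Y ↔ ∃ j, T.vx x j ∈ R := fun x => by simp only [Y, mem_filter, mem_univ, true_and]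
  have hz2 : ∀ a b c : ZMod 2, a ≠ b → a = c ∨ b = c := by decide
  have hv0 : ∃ v0, v0 ∉ R := by
    have : ∃ e, e.2 ≠ Mw e.1 ∧ K (T.ea e) := by
      have hkk : K k0 := Relation.EqvGen.refl _
      cases k0 with
      | inl w => exact ⟨(w, Mw w + 1), z3_ne1 _, hkk⟩
      | inr b =>
        have h1 : Mb b + 1 ≠ Mw ((T.n (Mb b + 1)).symm b) := by
          intro h
          have := (hc _ _).mp h.symm
          rw [Equiv.apply_symm_apply] at this
          exact z3_ne1 _ this.symm
        refine ⟨((T.n (Mb b + 1)).symm b, Mb b + 1), h1, ?_⟩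
        rw [hKe _ h1]
        simpa only [eb, Equiv.apply_symm_apply] using hkk
    obtain ⟨e, he1, he2⟩ := this
    have := hz1 e he1 he2
    by_contra h
    push Not at h
    exact this (((hR _).mp (h _)).trans ((hR _).mp (h _)).symm)
  obtain ⟨v0, hv0⟩ := hv0
  have hel : ∀ e, T.vx (T.eb e) (e.2 + 1) = T.el e := fun e => T.compat _ _ _ (z3_ne1 _)
  have her : ∀ e, T.vx (T.eb e) (e.2 + 2) = T.er e := fun e => T.compat _ _ _ (z3_ne2 _)
  have main := T.lemR_face hT.surj R F Y {k0} v0 hv0
    (fun e he => by rw [hF] at he; push Not at he; exact he) (fun f h1 h2 h3 => by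
      have hk : f k0 = 0 := h2 _ (mem_singleton_self _)
      have hfK : ∀ x, K x → f x = 0 := by
        intro x hx
        have := eqvGen_const (fun x => if K x then f x else 0) (fun x y hxy => by
          obtain ⟨e, he, rfl, rfl⟩ := hxy
          by_cases hk : K (T.ea e)
          · simp only [hk, (hKe e he).mp hk, if_true]
            refine (h3 e ?_).symm
            rw [hF, hR, hR]
            exact hz2 _ _ _ (hz1 e he hk)
          · simp only [hk, mt (hKe e he).mpr hk, if_false]) hx
        have hkk : K k0 := Relation.EqvGen.refl _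
        simp only [hkk, hx, if_true] at this
        rw [← this, hk]
      have hall : ∀ e, f (T.eb e) = f (T.ea e) := by
        intro e
        by_cases he : e ∈ F
        · exact h3 e he
        · rw [hF] at he
          push Not at he
          have key : ∀ x, T.vx x (e.2 + 1) = T.el e → f x = 0 := by
            intro x hx
            by_cases hk : K x
            · exact hfK x hk
            · apply h1
              rw [hY]
              rintro ⟨j, hj⟩
              apply he.1
              rw [hR] at hj ⊢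
              rw [← hx, hconst x hk _ j, hj]
          rw [key _ (hel e), key (T.ea e) rfl]
      intro x
      rw [T.connX f hall x k0, hk])
  let MR : Finset W := univ.filter (fun w => T.vw w (μ w) ∈ R)
  have hroots : ∀ j, T.vw w0 j ∈ R := fun j => (hR _).mpr (hconst (Sum.inl w0) hK0 j 0)
  have c1 : MR.card + 2 ≤ R.card := by
    have hsub : insert (T.vw w0 (μ w0 + 1)) (insert (T.vw w0 (μ w0 + 2))
        (MR.image (fun w => T.vw w (μ w)))) ⊆ R := by
      intro v hv
      simp only [mem_insert, mem_image, MR, mem_filter, mem_univ, true_and] at hv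
      rcases hv with rfl | rfl | ⟨w, hw, rfl⟩
      · exact hroots _
      · exact hroots _
      · exact hw
    have hn : ∀ j, j ≠ μ w0 → T.vw w0 j ∉ MR.image (fun w => T.vw w (μ w)) := by
      intro j hj hm
      obtain ⟨w, -, hw⟩ := mem_image.mp hm
      have := hroot w j hw
      subst this
      exact hj (T.vw_inj hw).symm
    have := card_le_card hsub
    rw [card_insert_of_notMem, card_insert_of_notMem (hn _ (z3_ne2 _)),
      card_image_of_injective _ hinj] at this
    · omega
    · rw [mem_insert]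
      rintro (h | h)
      · exact z3_ne12 _ (T.vw_inj h)
      · exact hn _ (z3_ne1 _) h
  have c2 : (F.filter (fun e => ¬ (e.2 ≠ Mw e.1))).card ≤ MR.card := by
    refine card_le_card_of_injOn (fun e => e.1) ?_ ?_
    · intro e he
      simp only [coe_filter, Set.mem_ofPred_eq, MR, mem_univ, true_and] at he ⊢
      obtain ⟨h1, h2⟩ := he
      have h3 := hz0 e (fun h => h2 h.1)
      push Not at h2
      rw [hF, hR, hR, ← h3, or_self] at h1
      rw [hR]
      rcases z3_cases (μ e.1) (Mw e.1) with h | h | h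
      · exact absurd h (hμ _)
      · rw [h, ← h2]; exact h1
      · rw [h, ← h2, ← h1, h3]; rfl
    · intro e he e' he' h
      simp only [coe_filter, Set.mem_ofPred_eq, ne_eq, not_not] at he he'
      simp only at h
      exact Prod.ext h (by rw [he.2, he'.2, h])
  have c3 : (F.filter (fun e => e.2 ≠ Mw e.1)).card ≤
      2 * ∑ w, (if Sum.inl w ∈ Y then 1 else 0) := by
    rw [← sum_nonM_W Mw, card_filter]
    refine le_trans (Finset.sum_le_sum (g := fun e => if e.2 ≠ Mw e.1 then
      (if Sum.inl e.1 ∈ Y then 1 else 0) else 0) fun e he => ?_)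
      (Finset.sum_le_sum_of_subset (subset_univ F))
    have : Sum.inl e.1 ∈ Y := by
      rw [hY]
      rcases (hF e).mp he with h | h
      · exact ⟨_, h⟩
      · exact ⟨_, h⟩
    simp [this]
  have c4 : (F.filter (fun e => e.2 ≠ Mw e.1)).card ≤
      2 * ∑ b, (if Sum.inr b ∈ Y then 1 else 0) := by
    rw [← T.sum_nonM_B Mw Mb hc, card_filter]
    refine le_trans (Finset.sum_le_sum (g := fun e => if e.2 ≠ Mw e.1 then
      (if Sum.inr (T.n e.2 e.1) ∈ Y then 1 else 0) else 0) fun e he => ?_)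
      (Finset.sum_le_sum_of_subset (subset_univ F))
    have : Sum.inr (T.n e.2 e.1) ∈ Y := by
      rw [hY]
      rcases (hF e).mp he with h | h
      · exact ⟨_, (hel e).symm ▸ h⟩
      · exact ⟨_, (her e).symm ▸ h⟩
    simp [this]
  have c5 : Y.card = ∑ w, (if Sum.inl w ∈ Y then 1 else 0) +
      ∑ b, (if Sum.inr b ∈ Y then 1 else 0) := by
    rw [← Fintype.sum_sum_type (f := fun x => if x ∈ Y then 1 else 0)]
    simp
  have c6 := card_filter_add_card_filter_not (s := F) (fun e => e.2 ≠ Mw e.1)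
  rw [card_singleton] at main
  omega

theorem Good.ham_of_nonsing (hT : T.Good) (w0 : W) (i0 : ZMod 3) (μ : W → ZMod 3)
    (hμ0 : μ w0 = i0 + 1) (hinj : Function.Injective (fun w => T.vw w (μ w)))
    (hroot : ∀ w j, T.vw w (μ w) = T.vw w0 j → w = w0)
    (hD : ∀ g : V → ℚ, (∀ j, g (T.vw w0 j) = 0) →
      (∀ w, w ≠ w0 → g (T.vw w (μ w + 1)) = g (T.vw w (μ w + 2))) → ∀ v, g v = 0) :
    ∃ Mw Mb, T.Ham Mw Mb ∧ Mw w0 = i0 := by
  classical
  let H : Matrix {w // w ≠ w0} {w // w ≠ w0} ℚ := fun w w' =>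
    (if T.n (μ w + 1) w = T.n i0 w' then 1 else 0) - (if T.n (μ w + 2) w = T.n i0 w' then 1 else 0)
  have hdet : H.det ≠ 0 := by
    intro h
    obtain ⟨c, hc0, hc⟩ := Matrix.exists_vecMul_eq_zero_iff.mpr h
    let c' : W → ℚ := fun w => if h : w ≠ w0 then c ⟨w, h⟩ else 0
    have hc' : ∀ w : {w // w ≠ w0}, c' w = c w := fun w => by simp [c', w.2]
    have hc0' : c' w0 = 0 := by simp [c']
    obtain ⟨g, hg⟩ := hT.cyc (K := ℚ) (fun e => c' e.1 *
        ((if e.2 = μ e.1 + 1 then 1 else 0) - (if e.2 = μ e.1 + 2 then 1 else 0))) (fun f => by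
      rw [sum_edge]
      have h1 : ∀ w, ∑ i, c' w * ((if i = μ w + 1 then 1 else 0) - (if i = μ w + 2 then 1 else 0)) *
          (f (T.eb (w, i)) - f (T.ea (w, i))) =
          c' w * (f (Sum.inr (T.n (μ w + 1) w)) - f (Sum.inr (T.n (μ w + 2) w))) := by
        intro w
        rw [z3_sum _ (μ w)]
        simp only [ea, eb, (z3_ne1 _).symm, (z3_ne2 _).symm, z3_ne12, (z3_ne12 _).symm,
          if_true, if_false]
        ring
      simp only [h1]
      have h2 : ∀ b : B, f (Sum.inr b) - f (Sum.inr (T.n i0 w0)) = ∑ w' : {w // w ≠ w0},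
          (if b = T.n i0 w' then 1 else 0) * (f (Sum.inr (T.n i0 w')) - f (Sum.inr (T.n i0 w0))) := by
        intro b
        obtain ⟨u, rfl⟩ := (T.n i0).surjective b
        by_cases hu : u = w0
        · subst hu
          rw [sub_self]
          refine (Finset.sum_eq_zero fun w' _ => ?_).symm
          have : T.n i0 u ≠ T.n i0 w' := fun h => w'.2 ((T.n i0).injective h).symm
          simp [this]
        · rw [Finset.sum_eq_single ⟨u, hu⟩]
          · simp
          · intro w' _ hw'
            have : T.n i0 u ≠ T.n i0 w' := fun h => hw' (Subtype.ext ((T.n i0).injective h).symm)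
            simp [this]
          · simp
      rw [← Fintype.sum_subtype_add_sum_subtype (fun w => w ≠ w0)]
      have h3 : ∑ w : {w // ¬ w ≠ w0}, c' w *
          (f (Sum.inr (T.n (μ w + 1) w)) - f (Sum.inr (T.n (μ w + 2) w))) = 0 := by
        refine Finset.sum_eq_zero fun w _ => ?_
        rw [not_not.mp w.2, hc0', zero_mul]
      rw [h3, add_zero]
      have h4 : ∀ w : {w // w ≠ w0}, c' w *
          (f (Sum.inr (T.n (μ w + 1) w)) - f (Sum.inr (T.n (μ w + 2) w))) =
          ∑ w' : {w // w ≠ w0}, c w * H w w' *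
            (f (Sum.inr (T.n i0 w')) - f (Sum.inr (T.n i0 w0))) := by
        intro w
        have : f (Sum.inr (T.n (μ w + 1) w)) - f (Sum.inr (T.n (μ w + 2) w)) =
            (f (Sum.inr (T.n (μ w + 1) w)) - f (Sum.inr (T.n i0 w0))) -
            (f (Sum.inr (T.n (μ w + 2) w)) - f (Sum.inr (T.n i0 w0))) := by ring
        rw [this, h2 (T.n (μ w + 1) w), h2 (T.n (μ w + 2) w), ← Finset.sum_sub_distrib,
          Finset.mul_sum, hc']
        refine Finset.sum_congr rfl fun w' _ => ?_
        simp only [H]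
        ring
      simp only [h4]
      rw [Finset.sum_comm]
      refine Finset.sum_eq_zero fun w' _ => ?_
      rw [← Finset.sum_mul]
      have := congrFun hc w'
      simp only [Matrix.vecMul, dotProduct, Pi.zero_apply] at this
      rw [this, zero_mul])
    have hr : ∀ j k, g (T.vw w0 j) = g (T.vw w0 k) := const3 _ (fun i => by
      have := hg (w0, i)
      simp only [hc0', zero_mul, el, er] at this
      linarith)
    have hg0 := hD (fun v => g v - g (T.vw w0 0)) (fun j => by rw [hr j 0, sub_self])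
      (fun w _ => by
        have := hg (w, μ w)
        simp only [(z3_ne1 _).symm, (z3_ne2 _).symm, if_false, el, er] at this
        linarith)
    apply hc0
    funext w
    have := hg (w, μ w + 1)
    have a1 := hg0 (T.el (w, μ w + 1))
    have a2 := hg0 (T.er (w, μ w + 1))
    simp only [z3_ne12, if_true, if_false, hc'] at this
    simp only [Pi.zero_apply]
    linarith
  rw [Matrix.det_apply] at hdet
  obtain ⟨σ, -, hσ⟩ := Finset.exists_ne_zero_of_sum_ne_zero hdet
  have hσ' : ∀ w', H (σ w') w' ≠ 0 := fun w' =>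
    Finset.prod_ne_zero_iff.mp (right_ne_zero_of_smul hσ) w' (mem_univ _)
  have hex : ∀ w : W, ∃ m : ZMod 3, m ≠ μ w ∧ (w = w0 → m = i0) ∧
      ∀ h : w ≠ w0, T.n m w = T.n i0 (σ.symm ⟨w, h⟩) := by
    intro w
    by_cases h : w = w0
    · exact ⟨i0, by rw [h, hμ0]; exact (z3_ne1 _).symm, fun _ => rfl, fun h' => absurd h h'⟩
    · have := hσ' (σ.symm ⟨w, h⟩)
      rw [Equiv.apply_symm_apply] at this
      by_cases h1 : T.n (μ w + 1) w = T.n i0 (σ.symm ⟨w, h⟩)
      · exact ⟨_, z3_ne1 _, fun h' => absurd h' h, fun _ => h1⟩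
      · by_cases h2 : T.n (μ w + 2) w = T.n i0 (σ.symm ⟨w, h⟩)
        · exact ⟨_, z3_ne2 _, fun h' => absurd h' h, fun _ => h2⟩
        · exact absurd (by simp only [H, h1, h2, if_false, sub_self]) this
  choose Mw hM1 hM2 hM3 using hex
  have hMinj : Function.Injective (fun w => T.n (Mw w) w) := by
    intro w w' h
    simp only at h
    by_cases h1 : w = w0
    · by_cases h2 : w' = w0
      · rw [h1, h2]
      · rw [hM2 w h1, hM3 w' h2, h1] at h
        exact absurd ((T.n i0).injective h).symm (σ.symm ⟨w', h2⟩).2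
    · by_cases h2 : w' = w0
      · rw [hM2 w' h2, hM3 w h1, h2] at h
        exact absurd ((T.n i0).injective h) (σ.symm ⟨w, h1⟩).2
      · rw [hM3 w h1, hM3 w' h2] at h
        have := σ.symm.injective (Subtype.ext ((T.n i0).injective h))
        exact congrArg Subtype.val this
  obtain ⟨Mb, hMb⟩ := T.exists_Mb Mw hMinj
  exact ⟨Mw, Mb, hT.conn_of_assign w0 Mw Mb hMb μ (fun w => (hM1 w).symm) hinj hroot,
    hM2 w0 rfl⟩

end Tri

end Vale.Agent.P039
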