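import Vale.Agent.P039.Lin

/-! Three-edge-coloured cubic bipartite structures with coloured faces. -/

namespace Vale.Agent.P039

open Finset

/-- White vertices `W`, black vertices `B`, faces `V`.  The edge of colour `i` at `w` goes to
`n i w`; the face of colour `j` at `w` is `vw w j`. -/
structure Tri (W B V : Type*) where
  n : ZMod 3 → W ≃ B
  vw : W → ZMod 3 → V
  vb : B → ZMod 3 → V
  col : V → ZMod 3
  col_vw : ∀ w j, col (vw w j) = j
  compat : ∀ i j w, j ≠ i → vb (n i w) j = vw w j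
  conn3 : ∀ (p : W → Prop) (q : B → Prop) (e1 e2 : W × ZMod 3),
    (∀ w i, ¬ (p w ↔ q (n i w)) → (w, i) = e1 ∨ (w, i) = e2) →
      ((∀ w, p w) ∧ ∀ b, q b) ∨ ((∀ w, ¬ p w) ∧ ∀ b, ¬ q b)

theorem z3_cases (i j : ZMod 3) : i = j ∨ i = j + 1 ∨ i = j + 2 := by
  revert i j; decide

theorem z3_sum {M : Type*} [AddCommMonoid M] (f : ZMod 3 → M) (j : ZMod 3) :
    ∑ i, f i = f j + f (j + 1) + f (j + 2) := by
  have h : (Finset.univ : Finset (ZMod 3)) = {j, j + 1, j + 2} := by
    revert j; decide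
  have h1 : j ∉ ({j + 1, j + 2} : Finset (ZMod 3)) := by revert j; decide
  have h2 : j + 1 ∉ ({j + 2} : Finset (ZMod 3)) := by revert j; decide
  rw [h, Finset.sum_insert h1, Finset.sum_insert h2, Finset.sum_singleton, add_assoc]

theorem z3_ne1 (j : ZMod 3) : j + 1 ≠ j := by revert j; decide
theorem z3_ne2 (j : ZMod 3) : j + 2 ≠ j := by revert j; decide
theorem z3_ne12 (j : ZMod 3) : j + 1 ≠ j + 2 := by revert j; decide
theorem z3_11 (j : ZMod 3) : j + 1 + 1 = j + 2 := by revert j; decide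
theorem z3_12 (j : ZMod 3) : j + 1 + 2 = j := by revert j; decide
theorem z3_21 (j : ZMod 3) : j + 2 + 1 = j := by revert j; decide
theorem z3_22 (j : ZMod 3) : j + 2 + 2 = j + 1 := by revert j; decide

namespace Tri

variable {W B V : Type*} (T : Tri W B V)

/-- White end of an edge. -/
def ea (_T : Tri W B V) (e : W × ZMod 3) : W ⊕ B := Sum.inl e.1
/-- Black end of an edge. -/
def eb (e : W × ZMod 3) : W ⊕ B := Sum.inr (T.n e.2 e.1)
/-- Left face of an edge. -/
def el (e : W × ZMod 3) : V := T.vw e.1 (e.2 + 1)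
/-- Right face of an edge. -/
def er (e : W × ZMod 3) : V := T.vw e.1 (e.2 + 2)
/-- Faces at a vertex. -/
def vx (x : W ⊕ B) (j : ZMod 3) : V := Sum.elim T.vw T.vb x j

/-- Edges seen from the black side. -/
def eqB : W × ZMod 3 ≃ B × ZMod 3 where
  toFun e := (T.n e.2 e.1, e.2)
  invFun e := ((T.n e.2).symm e.1, e.2)
  left_inv e := by simp
  right_inv e := by simp

theorem vb_eq (b : B) (i j : ZMod 3) (h : j ≠ i) : T.vb b j = T.vw ((T.n i).symm b) j := by
  rw [← T.compat i j _ h, Equiv.apply_symm_apply]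

theorem col_vb (b : B) (j : ZMod 3) : T.col (T.vb b j) = j := by
  rw [T.vb_eq b (j + 1) j (z3_ne1 j).symm, T.col_vw]

theorem col_vx (x : W ⊕ B) (j : ZMod 3) : T.col (T.vx x j) = j := by
  cases x with
  | inl w => exact T.col_vw w j
  | inr b => exact T.col_vb b j

theorem vw_inj {w w' : W} {j j' : ZMod 3} (h : T.vw w j = T.vw w' j') : j = j' := by
  rw [← T.col_vw w j, h, T.col_vw]

theorem connX [Nonempty W] {α : Type*} (f : W ⊕ B → α) (h : ∀ e, f (T.eb e) = f (T.ea e))
    (x y : W ⊕ B) : f x = f y := by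
  obtain ⟨w0⟩ := ‹Nonempty W›
  have key : ∀ x, f x = f (Sum.inl w0) := by
    rcases T.conn3 (fun w => f (Sum.inl w) = f (Sum.inl w0))
      (fun b => f (Sum.inr b) = f (Sum.inl w0)) (w0, 0) (w0, 0) (fun w i hw => by
        exfalso
        apply hw
        have := h (w, i)
        simp only [eb, ea] at this
        rw [this]) with h1 | h1
    · intro x
      cases x with
      | inl w => exact h1.1 w
      | inr b => exact h1.2 b
    · exact absurd rfl (h1.1 w0)
  rw [key x, key y]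

theorem connV [Nonempty W] (surj : ∀ v, ∃ w j, T.vw w j = v) {α : Type*} (g : V → α)
    (h : ∀ e, g (T.el e) = g (T.er e)) (u v : V) : g u = g v := by
  have h1 : ∀ w j, g (T.vw w (j + 1)) = g (T.vw w (j + 2)) := fun w j => h (w, j)
  have h2 : ∀ w j k, g (T.vw w j) = g (T.vw w k) := by
    intro w j k
    have a1 := h1 w (j + 1)
    have a2 := h1 w (j + 2)
    rw [z3_11, z3_12] at a1
    rw [z3_21, z3_22] at a2
    rcases z3_cases k j with rfl | rfl | rfl
    · rfl
    · exact a2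
    · exact a1.symm
  have h3 : ∀ b j k, g (T.vb b j) = g (T.vb b k) := by
    intro b j k
    have : ∃ i, j ≠ i ∧ k ≠ i := by revert j k; decide
    obtain ⟨i, hj, hk⟩ := this
    rw [T.vb_eq b i j hj, T.vb_eq b i k hk, h2]
  have h4 := T.connX (fun x => g (T.vx x 0)) (fun e => by
    simp only [vx, eb, ea, Sum.elim_inl, Sum.elim_inr]
    rw [h3 _ 0 (e.2 + 1), T.compat _ _ _ (z3_ne1 _), h2])
  obtain ⟨w, j, rfl⟩ := surj u
  obtain ⟨w', j', rfl⟩ := surj v
  rw [h2 w j 0, h2 w' j' 0]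
  exact h4 (Sum.inl w) (Sum.inl w')

variable [Fintype W] [Fintype B]

include T in
theorem card_B : Fintype.card B = Fintype.card W := (Fintype.card_congr (T.n 0)).symm

omit [Fintype B] in
theorem sum_edge {M : Type*} [AddCommMonoid M] (f : W × ZMod 3 → M) :
    ∑ e, f e = ∑ w, ∑ i, f (w, i) := Fintype.sum_prod_type f

theorem sum_edgeB {M : Type*} [AddCommMonoid M] (f : W × ZMod 3 → M) :
    ∑ e, f e = ∑ b, ∑ i, f ((T.n i).symm b, i) := by
  rw [← Fintype.sum_prod_type (f := fun e : B × ZMod 3 => f ((T.n e.2).symm e.1, e.2))]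
  exact (Equiv.sum_comp T.eqB.symm f).symm

theorem orth {R : Type*} [CommRing R] (g : V → R) (f : W ⊕ B → R) :
    ∑ e, (g (T.el e) - g (T.er e)) * (f (T.eb e) - f (T.ea e)) = 0 := by
  have h1 : ∑ e, (g (T.el e) - g (T.er e)) * f (T.ea e) = 0 := by
    rw [sum_edge]
    refine Finset.sum_eq_zero fun w _ => ?_
    rw [z3_sum _ 0]
    simp only [el, er, ea, z3_11, z3_12, z3_21, z3_22]
    ring
  have h2 : ∑ e, (g (T.el e) - g (T.er e)) * f (T.eb e) = 0 := by
    rw [T.sum_edgeB]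
    refine Finset.sum_eq_zero fun b _ => ?_
    have : ∀ i, (g (T.el ((T.n i).symm b, i)) - g (T.er ((T.n i).symm b, i))) *
        f (T.eb ((T.n i).symm b, i)) = (g (T.vb b (i + 1)) - g (T.vb b (i + 2))) * f (Sum.inr b) := by
      intro i
      simp only [el, er, eb, Equiv.apply_symm_apply]
      rw [T.vb_eq b i _ (z3_ne1 i), T.vb_eq b i _ (z3_ne2 i)]
    simp only [this]
    rw [z3_sum _ 0]
    simp only [z3_11, z3_12, z3_21, z3_22]
    ring
  simp only [mul_sub, Finset.sum_sub_distrib, h1, h2, sub_zero]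

theorem orth' {R : Type*} [CommRing R] (f : W ⊕ B → R) (g : V → R) :
    ∑ e, (f (T.eb e) - f (T.ea e)) * (g (T.el e) - g (T.er e)) = 0 := by
  rw [← T.orth g f]
  exact Finset.sum_congr rfl fun e _ => mul_comm _ _

variable [Fintype V]

/-- Every face occurs and the Euler count is that of the sphere. -/
structure Good : Prop where
  ne : Nonempty W
  surj : ∀ v, ∃ w j, T.vw w j = v
  euler : Fintype.card W + 2 ≤ Fintype.card V

theorem lemR_face [Nonempty W] (surj : ∀ v, ∃ w j, T.vw w j = v)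
    (S : Finset V) (F : Finset (W × ZMod 3)) (Y P : Finset (W ⊕ B)) (v0 : V) (hv0 : v0 ∉ S)
    (hF : ∀ e, e ∉ F → T.el e ∉ S ∧ T.er e ∉ S)
    (hP : ∀ f : W ⊕ B → ℚ, (∀ x, x ∉ Y → f x = 0) → (∀ x ∈ P, f x = 0) →
      (∀ e ∈ F, f (T.eb e) = f (T.ea e)) → ∀ x, f x = 0) :
    S.card + Y.card ≤ F.card + P.card :=
  lemR T.ea T.eb T.el T.er (fun g f => T.orth g f) (fun g h => T.connV surj g h)
    S F Y P v0 hv0 hF hP

theorem lemR_vert [Nonempty W]
    (S : Finset (W ⊕ B)) (F : Finset (W × ZMod 3)) (Y P : Finset V) (x0 : W ⊕ B) (hx0 : x0 ∉ S)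
    (hF : ∀ e, e ∉ F → T.eb e ∉ S ∧ T.ea e ∉ S)
    (hP : ∀ g : V → ℚ, (∀ x, x ∉ Y → g x = 0) → (∀ x ∈ P, g x = 0) →
      (∀ e ∈ F, g (T.el e) = g (T.er e)) → ∀ x, g x = 0) :
    S.card + Y.card ≤ F.card + P.card :=
  lemR T.er T.el T.eb T.ea (fun f g => T.orth' f g) (fun f h => T.connX f h)
    S F Y P x0 hx0 hF hP

theorem card_le [Nonempty W] (surj : ∀ v, ∃ w j, T.vw w j = v) :
    Fintype.card V ≤ Fintype.card W + 2 := by
  classical
  obtain ⟨w0⟩ := ‹Nonempty W›
  have := T.lemR_face surj ({T.vw w0 0}ᶜ) Finset.univ Finset.univ {Sum.inl w0} (T.vw w0 0)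
    (by simp) (by simp) (fun f _ h1 h2 x => by
      rw [T.connX f (fun e => h2 e (Finset.mem_univ e)) x (Sum.inl w0)]
      exact h1 _ (by simp))
  simp only [Finset.card_compl, Finset.card_singleton, Finset.card_univ, Fintype.card_sum,
    Fintype.card_prod, ZMod.card, T.card_B] at this
  have h1 : 0 < Fintype.card V := Fintype.card_pos_iff.mpr ⟨T.vw w0 0⟩
  omega

variable {T}

theorem Good.cyc (hT : T.Good) {K : Type*} [Field K] (z : W × ZMod 3 → K)
    (hz : ∀ f : W ⊕ B → K, ∑ e, z e * (f (T.eb e) - f (T.ea e)) = 0) :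
    ∃ g : V → K, ∀ e, z e = g (T.el e) - g (T.er e) := by
  have := hT.ne
  refine lemH T.ea T.eb T.el T.er (fun g f => T.orth g f) (fun f h => T.connX f h)
    (fun g h => T.connV hT.surj g h) ?_ z hz
  have := hT.euler
  simp only [Fintype.card_sum, Fintype.card_prod, ZMod.card, T.card_B]
  omega

theorem Good.cocyc (hT : T.Good) {K : Type*} [Field K] (z : W × ZMod 3 → K)
    (hz : ∀ g : V → K, ∑ e, z e * (g (T.el e) - g (T.er e)) = 0) :
    ∃ f : W ⊕ B → K, ∀ e, z e = f (T.eb e) - f (T.ea e) := by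
  have := hT.ne
  refine lemH T.er T.el T.eb T.ea (fun f g => T.orth' f g)
    (fun g h => T.connV hT.surj g h) (fun f h => T.connX f h) ?_ z hz
  have := hT.euler
  simp only [Fintype.card_sum, Fintype.card_prod, ZMod.card, T.card_B]
  omega

theorem Good.card_V (hT : T.Good) : Fintype.card V = Fintype.card W + 2 := by
  have := hT.ne
  exact le_antisymm (T.card_le hT.surj) hT.euler

/-- The vertices on one face are connected along the edges of that face. -/
theorem Good.fcW (hT : T.Good) (K : W ⊕ B → Prop) (v : V)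
    (hK : ∀ e, T.el e = v ∨ T.er e = v → (K (T.ea e) ↔ K (T.eb e)))
    (w w' : W) (j : ZMod 3) (hw : T.vw w j = v) (hw' : T.vw w' j = v) (h : K (Sum.inl w)) :
    K (Sum.inl w') := by
  classical
  have := hT.ne
  by_contra h'
  let c : W ⊕ B → ℚ := fun x => if K x then 1 else 0
  let u : V → ℚ := fun y => if y = v then 1 else 0
  obtain ⟨g, hg⟩ := hT.cyc (fun e => c (T.ea e) * (u (T.el e) - u (T.er e))) (fun f => by
    rw [← T.orth u (fun x => c x * f x)]
    refine Finset.sum_congr rfl fun e _ => ?_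
    by_cases he : T.el e = v ∨ T.er e = v
    · have : c (T.eb e) = c (T.ea e) := by simp only [c, hK e he]
      rw [this]; ring
    · push Not at he
      simp [u, he.1, he.2])
  have hcol : T.col v = j := by rw [← hw, T.col_vw]
  have hne : ∀ x k, k ≠ j → u (T.vw x k) = 0 := by
    intro x k hk
    have : T.vw x k ≠ v := fun h => hk (by rw [← hcol, ← h, T.col_vw])
    simp [u, this]
  have h1 : ∀ x, g (T.vw x (j + 1)) = g (T.vw x (j + 2)) := by
    intro x
    have := hg (x, j)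
    simp only [el, er] at this
    rw [hne _ _ (z3_ne1 j), hne _ _ (z3_ne2 j)] at this
    linarith
  have h2 : ∀ b, g (T.vb b (j + 1)) = g (T.vb b (j + 2)) := by
    intro b
    rw [T.vb_eq b j _ (z3_ne1 j), T.vb_eq b j _ (z3_ne2 j), h1]
  have h3 := T.connX (fun x => g (T.vx x (j + 1))) (fun e => by
    simp only [vx, eb, ea, Sum.elim_inl, Sum.elim_inr]
    by_cases he : j + 1 = e.2
    · rw [h2, h1, T.compat _ _ _ (by rw [← he]; exact (z3_ne12 j).symm)]
    · rw [T.compat _ _ _ he]) (Sum.inl w) (Sum.inl w')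
  simp only [vx, Sum.elim_inl] at h3
  have a1 := hg (w, j + 2)
  have a2 := hg (w', j + 2)
  simp only [el, er, ea, z3_21, z3_22, hw, hw', hne _ _ (z3_ne1 j)] at a1 a2
  simp only [c, u, h, h', if_true, if_false] at a1 a2
  linarith

theorem Good.fc (hT : T.Good) (K : W ⊕ B → Prop) (v : V)
    (hK : ∀ e, T.el e = v ∨ T.er e = v → (K (T.ea e) ↔ K (T.eb e)))
    (x y : W ⊕ B) (j k : ZMod 3) (hx : T.vx x j = v) (hy : T.vx y k = v) (h : K x) : K y := by
  have hjk : j = k := by rw [← T.col_vx x j, hx, ← hy, T.col_vx]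
  subst hjk
  have key : ∀ z : W ⊕ B, T.vx z j = v → ∃ w, T.vw w j = v ∧ (K (Sum.inl w) ↔ K z) := by
    intro z hz
    cases z with
    | inl w => exact ⟨w, hz, Iff.rfl⟩
    | inr b =>
      have h1 : T.vw ((T.n (j + 2)).symm b) j = v := by
        rw [← T.vb_eq b (j + 2) j (z3_ne2 j).symm]; exact hz
      refine ⟨_, h1, ?_⟩
      have := hK ((T.n (j + 2)).symm b, j + 2) (Or.inl (by simp only [el, z3_21]; exact h1))
      simpa only [ea, eb, Equiv.apply_symm_apply] using this
  obtain ⟨w, hw, hw1⟩ := key x hx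
  obtain ⟨w', hw', hw1'⟩ := key y hy
  exact hw1'.mp (hT.fcW K v hK w w' j hw hw' (hw1.mpr h))

end Tri

end Vale.Agent.P039
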